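import Vale.Agent.P032.Words5.H819.Defs

/-!
# Pentagon words: the axioms

`X l` are the angles (unit 60 degrees) of the letter `l`: `l = 0, .., 4` the diagonals `E_0, .., E_4`,
`l = 5` the colour `f` which is missing at the centre.
-/

namespace Vale.Agent.P032.Words.Pent

open Set Filter Topology

/-- two letters allowed at one point -/
def tgN (a b : ℕ) : Bool :=
  a == b || a == 5 || b == 5 || (a + 5 - b) % 5 == 1 || (a + 5 - b) % 5 == 4

/-- the hexagon at the angle `v` is `h` (one letter at each of the six points) -/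
def Hat (X : Fin 6 → Set ℝ) (v : ℝ) (h : Hx6) : Prop :=
  ∀ k m : Fin 6, v + (k.val : ℝ) ∈ X m ↔ m = h k

/-- renaming `E_j` to `E_(a + j)` or `E_(a - j)` -/
def mapL (a : Fin 5) (s : Bool) (l : Fin 6) : Fin 6 :=
  if l = 5 then 5 else
    ⟨(a.val + (if s then 5 - l.val else l.val)) % 5, by omega⟩

/-- the frozen hexagons (I), (II), (A), first hexagon -/
def fx : Fin 3 → Hx6 := ![![0, 5, 0, 5, 0, 5], ![1, 5, 0, 2, 0, 5], ![0, 5, 0, 5, 0, 5]]

/-- the frozen hexagons (I), (II), (A), second hexagon -/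
def fy : Fin 3 → Hx6 := ![![5, 2, 5, 2, 5, 2], ![0, 2, 5, 1, 5, 2], ![5, 2, 5, 2, 5, 3]]

/-- renaming and dihedral group of the positions -/
def trH (a : Fin 5) (s : Bool) (q : Fin 6) (t : Bool) (h : Hx6) : Hx6 :=
  fun k => mapL a s (h (if t then q - k else q + k))

/-- the letter `E_j` -/
def EL (j : ℕ) : Fin 6 := ⟨j % 5, by omega⟩

/-- **The word of a clean five coloured centre.** -/
structure Word5 (X : Fin 6 → Set ℝ) : Prop where
  closed : ∀ l, IsClosed (X l)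
  per : ∀ l u, u + 6 ∈ X l ↔ u ∈ X l
  gen : Dense {u : ℝ | ∃ l, ∀ m, u ∈ X m ↔ m = l}
  two : ∀ u l m n, u ∈ X l → u ∈ X m → u ∈ X n → l = m ∨ m = n ∨ n = l
  tog : ∀ u l m, u ∈ X l → u ∈ X m → tgN l.val m.val = true
  sixty : ∀ u l m, (∀ n, u ∈ X n ↔ n = l) → (∀ n, u + 1 ∈ X n ↔ n = m) →
    adjN l.val m.val = true
  anti : ∀ u l m, (∀ n, u ∈ X n ↔ n = l) → (∀ n, u + 3 ∈ X n ↔ n = m) →
    oppN l.val m.val = true
  swap1 : ∀ u a a' b b', u ∈ X a → u ∈ X a' → u + 1 ∈ X b → u + 1 ∈ X b' →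
    adjN a.val b.val = true → adjN a'.val b'.val = true →
    adjN a.val b'.val = true ∨ adjN a'.val b.val = true
  swap3 : ∀ u a a' b b', u ∈ X a → u ∈ X a' → u + 3 ∈ X b → u + 3 ∈ X b' →
    oppN a.val b.val = true → oppN a'.val b'.val = true →
    oppN a.val b'.val = true ∨ oppN a'.val b.val = true
  cnt : ∀ j : Fin 5, (∀ u, u ∈ X (EL j.val) → u ∉ X 5) ∨
    (∀ u, u ∈ X (EL (j.val + 2)) → u ∉ X (EL (j.val + 3))) ∨
    ∃ s t : ℝ, (∀ u, u ∈ X (EL j.val) → u ∈ X 5 → ∃ n : ℤ, u = s + 6 * (n : ℝ)) ∧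
      ∀ u, u ∈ X (EL (j.val + 2)) → u ∈ X (EL (j.val + 3)) → ∃ n : ℤ, u = t + 6 * (n : ℝ)
  nofr : ∀ (i : Fin 3) (a : Fin 5) (s : Bool) (q : Fin 6) (t : Bool) (u : ℝ),
    (∀ k : Fin 6, u + (k.val : ℝ) ∈ X (trH a s q t (fx i) k)) →
    (∀ k : Fin 6, u + (k.val : ℝ) ∈ X (trH a s q t (fy i) k)) →
    (∃ᶠ v in 𝓝 u, Hat X v (trH a s q t (fx i))) →
    (∃ᶠ v in 𝓝 u, Hat X v (trH a s q t (fy i))) →
    (∀ᶠ v in 𝓝 u, ∀ h, Hat X v h → h = trH a s q t (fx i) ∨ h = trH a s q t (fy i)) → False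

end Vale.Agent.P032.Words.Pent
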