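import Mathlib

/-!
# Once around the circle, abstract form

`Hat v h`: `h` is the hexagon at the angle `v` (a dense set of angles), `Box u h`: `h` is possible near
`u`, `V i` are the times of the marks (modulo one), `R h₀ S h`: from `h₀` one can reach `h` using the
marks in `S`, every one at most once.  If inside every box the relation can be continued and `rot h₀` is
never reached from `h₀`, there is no word.
-/

namespace Vale.Agent.P032.Words.AbsRun

open Set Filter Topology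

/-- the representative of `x` in `[v₀, v₀ + 1)` -/
noncomputable def rep (v₀ x : ℝ) : ℝ := v₀ + Int.fract (x - v₀)

theorem rep_eq {v₀ u x : ℝ} (h0 : v₀ ≤ u) (h1 : u < v₀ + 1) {n : ℤ} (h : u = x + (n : ℝ)) :
    rep v₀ x = u := by
  have e : Int.fract (x - v₀) = u - v₀ := by
    rw [Int.fract_eq_iff]
    refine ⟨by linarith, by linarith, -n, ?_⟩
    push_cast
    linarith
  unfold rep
  rw [e]
  ring

theorem rep_spec (v₀ x : ℝ) : ∃ n : ℤ, rep v₀ x = x + (n : ℝ) := by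
  refine ⟨-⌊x - v₀⌋, ?_⟩
  unfold rep Int.fract
  push_cast
  ring

variable {H : Type*} {Hat Box : ℝ → H → Prop} {rot : H → H} {m : ℕ} {V : Fin m → ℝ}
  {R : H → Finset (Fin m) → H → Prop}

/-- no mark at `u` -/
def Free (V : Fin m → ℝ) (u : ℝ) : Prop := ∀ (i : Fin m) (n : ℤ), u ≠ V i + (n : ℝ)

/-- reachable by marks inside `A` -/
def RS (R : H → Finset (Fin m) → H → Prop) (h₀ : H) (A : Set (Fin m)) (h : H) : Prop :=
  ∃ S : Finset (Fin m), (∀ i ∈ S, i ∈ A) ∧ R h₀ S h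

theorem free_int (near : ∀ u, ∀ᶠ v in 𝓝 u, ∀ h, Hat v h → Box u h)
    (dense : Dense {v | ∃ h, Hat v h})
    (step : ∀ h₀ u h h' (S : Finset (Fin m)), Box u h → Box u h' → R h₀ S h →
      (∀ i ∈ S, ∀ n : ℤ, u ≠ V i + (n : ℝ)) →
      ∃ S' : Finset (Fin m), (∀ i ∈ S', i ∈ S ∨ ∃ n : ℤ, u = V i + (n : ℝ)) ∧ R h₀ S' h')
    {I : Set ℝ} (hI : IsPreconnected I) (hfree : ∀ u ∈ I, Free V u) {h₀ : H} {A : Set (Fin m)}
    {v v' : ℝ} (hv : v ∈ I) (hv' : v' ∈ I) {h h' : H} (hh : Hat v h) (hh' : Hat v' h')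
    (hD : RS R h₀ A h) : RS R h₀ A h' := by
  classical
  have hrs : ∀ u, Free V u → ∀ g g', Box u g → Box u g' → RS R h₀ A g → RS R h₀ A g' := by
    rintro u hu g g' hg hg' ⟨S, hS, hR⟩
    obtain ⟨S', hS', hR'⟩ := step h₀ u g g' S hg hg' hR fun i _ n => hu i n
    refine ⟨S', fun i hi => ?_, hR'⟩
    rcases hS' i hi with h1 | ⟨n, h1⟩
    · exact hS i h1
    · exact absurd h1 (hu i n)
  set S1 : Set ℝ := {u | ∀ᶠ s in 𝓝 u, ∀ g, Hat s g → RS R h₀ A g} with hS1
  set S2 : Set ℝ := {u | ∀ᶠ s in 𝓝 u, ∀ g, Hat s g → ¬ RS R h₀ A g} with hS2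
  have o1 : IsOpen S1 := isOpen_iff_mem_nhds.2 fun u hu => eventually_eventually_nhds.2 hu
  have o2 : IsOpen S2 := isOpen_iff_mem_nhds.2 fun u hu => eventually_eventually_nhds.2 hu
  have hcov : I ⊆ S1 ∪ S2 := by
    intro u hu
    by_cases hex : ∃ g, Box u g ∧ RS R h₀ A g
    · obtain ⟨g, hg, hgD⟩ := hex
      left
      filter_upwards [near u] with s hs g' hg'
      exact hrs u (hfree u hu) g g' hg (hs g' hg') hgD
    · right
      push Not at hex
      filter_upwards [near u] with s hs g' hg'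
      exact hex g' (hs g' hg')
  have hdisj : ∀ u, u ∈ S1 → u ∈ S2 → False := by
    intro u h1 h2
    have h3 : ∀ᶠ s in 𝓝 u, ∀ g, Hat s g → False := by
      filter_upwards [h1, h2] with s a b g hg
      exact b g hg (a g hg)
    obtain ⟨O, hO, hOo, huO⟩ := mem_nhds_iff.1 h3
    obtain ⟨s, hs1, g, hg⟩ := dense.inter_open_nonempty O hOo ⟨u, huO⟩
    exact hO hs1 g hg
  have hvS : v ∈ S1 := by
    rcases hcov hv with h1 | h1
    · exact h1
    · exact absurd hD (h1.self_of_nhds h hh)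
  have hsub : I ⊆ S1 := by
    refine hI.subset_left_of_subset_union o1 o2 ?_ hcov ⟨v, hv, hvS⟩
    rw [Set.disjoint_left]
    exact fun u h1 h2 => hdisj u h1 h2
  exact (hsub hv').self_of_nhds h' hh'

theorem exists_right (dense : Dense {v | ∃ h, Hat v h}) {u u' : ℝ} (h : u < u') {p : ℝ → Prop}
    (hp : ∀ᶠ v in 𝓝 u, p v) : ∃ v g, u < v ∧ v < u' ∧ p v ∧ Hat v g := by
  obtain ⟨O, hO, hOo, huO⟩ := mem_nhds_iff.1 hp
  have h1 : (O ∩ Ioo u u').Nonempty := by
    have h0 : ∀ᶠ v in 𝓝[>] u, v ∈ O := mem_nhdsWithin_of_mem_nhds (hOo.mem_nhds huO)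
    have h2 : ∀ᶠ v in 𝓝[>] u, v ∈ O ∧ v ∈ Ioo u u' := h0.and (Ioo_mem_nhdsGT h)
    obtain ⟨v, hv⟩ := h2.exists
    exact ⟨v, hv⟩
  obtain ⟨v, hv, g, hg⟩ := dense.inter_open_nonempty _ (hOo.inter isOpen_Ioo) h1
  exact ⟨v, g, hv.2.1, hv.2.2, hO hv.1, hg⟩

theorem exists_left (dense : Dense {v | ∃ h, Hat v h}) {u' u : ℝ} (h : u' < u) {p : ℝ → Prop}
    (hp : ∀ᶠ v in 𝓝 u, p v) : ∃ v g, u' < v ∧ v < u ∧ p v ∧ Hat v g := by
  obtain ⟨O, hO, hOo, huO⟩ := mem_nhds_iff.1 hp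
  have h1 : (O ∩ Ioo u' u).Nonempty := by
    have h0 : ∀ᶠ v in 𝓝[<] u, v ∈ O := mem_nhdsWithin_of_mem_nhds (hOo.mem_nhds huO)
    have h2 : ∀ᶠ v in 𝓝[<] u, v ∈ O ∧ v ∈ Ioo u' u := h0.and (Ioo_mem_nhdsLT h)
    obtain ⟨v, hv⟩ := h2.exists
    exact ⟨v, hv⟩
  obtain ⟨v, hv, g, hg⟩ := dense.inter_open_nonempty _ (hOo.inter isOpen_Ioo) h1
  exact ⟨v, g, hv.2.1, hv.2.2, hO hv.1, hg⟩

/-- the last time before `u` -/
theorem last_before {s : Fin m → ℝ} {v₀ u : ℝ} (h : v₀ < u) :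
    ∃ m', v₀ ≤ m' ∧ m' < u ∧ (∀ i, s i < u → s i ≤ m') ∧ (m' = v₀ ∨ ∃ i, s i = m') := by
  classical
  set B : Finset ℝ := insert v₀ ((Finset.univ.filter fun i => s i < u).image s) with hB
  have hne : B.Nonempty := ⟨v₀, Finset.mem_insert_self _ _⟩
  refine ⟨B.max' hne, B.le_max' _ (Finset.mem_insert_self _ _), ?_, ?_, ?_⟩
  · rcases Finset.mem_insert.1 (B.max'_mem hne) with h4 | h4
    · rw [h4]; exact h
    · obtain ⟨i, hi, hi2⟩ := Finset.mem_image.1 h4
      rw [← hi2]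
      rw [Finset.mem_filter] at hi
      exact hi.2
  · intro i hi
    refine B.le_max' _ (Finset.mem_insert_of_mem (Finset.mem_image.2 ⟨i, ?_, rfl⟩))
    rw [Finset.mem_filter]
    exact ⟨Finset.mem_univ i, hi⟩
  · rcases Finset.mem_insert.1 (B.max'_mem hne) with h4 | h4
    · exact Or.inl h4
    · obtain ⟨i, -, hi2⟩ := Finset.mem_image.1 h4
      exact Or.inr ⟨i, hi2⟩

/-- an angle with a hexagon and without a mark -/
theorem exists_start (V : Fin m → ℝ) (dense : Dense {v | ∃ h, Hat v h}) :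
    ∃ v₀ h₀, Hat v₀ h₀ ∧ Free V v₀ := by
  obtain ⟨a, ha0, ha1, ha2, -⟩ := last_before (s := fun i => Int.fract (V i)) (v₀ := 0) (u := 1)
    one_pos
  obtain ⟨v, hv, g, hg⟩ := dense.inter_open_nonempty (Ioo a 1) isOpen_Ioo
    ⟨(a + 1) / 2, by constructor <;> linarith⟩
  refine ⟨v, g, hg, fun i n h => ?_⟩
  have e : Int.fract (V i) = v := by
    rw [Int.fract_eq_iff]
    refine ⟨by linarith [hv.1], hv.2, -n, ?_⟩
    push_cast
    linarith
  have h3 := ha2 i (Int.fract_lt_one _)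
  rw [e] at h3
  exact absurd hv.1 (not_lt.2 h3)

/-- **Once around the circle.** -/
theorem false_of (V : Fin m → ℝ) (near : ∀ u, ∀ᶠ v in 𝓝 u, ∀ h, Hat v h → Box u h)
    (dense : Dense {v | ∃ h, Hat v h}) (hrot : ∀ v h, Hat v h → Hat (v + 1) (rot h))
    (start : ∀ v h, Hat v h → R h ∅ h)
    (step : ∀ h₀ u h h' (S : Finset (Fin m)), Box u h → Box u h' → R h₀ S h →
      (∀ i ∈ S, ∀ n : ℤ, u ≠ V i + (n : ℝ)) →
      ∃ S' : Finset (Fin m), (∀ i ∈ S', i ∈ S ∨ ∃ n : ℤ, u = V i + (n : ℝ)) ∧ R h₀ S' h')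
    (fin : ∀ v h S, Hat v h → ¬ R h S (rot h)) : False := by
  classical
  obtain ⟨v₀, h₀, hh₀, hf₀⟩ := exists_start V dense
  have hstart : ∀ A : Set (Fin m), RS R h₀ A h₀ := fun A =>
    ⟨∅, fun i hi => absurd hi (Finset.notMem_empty i), start v₀ h₀ hh₀⟩
  let s : Fin m → ℝ := fun i => rep v₀ (V i)
  have hmark : ∀ u, v₀ ≤ u → u < v₀ + 1 → ∀ (i : Fin m) (n : ℤ), u = V i + (n : ℝ) → s i = u :=
    fun u hu0 hu1 i n h => rep_eq hu0 hu1 h
  have key : ∀ N : ℕ, ∀ u : ℝ, v₀ < u → u ≤ v₀ + 1 →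
      (Finset.univ.filter fun i => s i < u).card = N →
      ∀ v h, v₀ < v → v < u → (∀ i, s i < u → s i < v) → Hat v h →
        RS R h₀ {i | s i < u} h := by
    intro N
    induction N using Nat.strong_induction_on with
    | _ N ih =>
      intro u hu0 hu1 hN v h hv0 hvu hlast hh
      obtain ⟨u', h0u', hu'u, hu'2, hu'3⟩ := last_before (s := s) hu0
      have hlt : u' < v := by
        rcases hu'3 with h3 | ⟨i, h3⟩
        · rw [h3]; exact hv0
        · rw [← h3]; exact hlast i (by rw [h3]; exact hu'u)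
      have hfree : ∀ x, u' < x → x < u → Free V x := by
        intro x hx1 hx2 i n h7
        have h8 := hmark x (h0u'.trans hx1.le) (hx2.trans_le hu1) i n h7
        have h9 := hu'2 i (by rw [h8]; exact hx2)
        rw [h8] at h9
        exact absurd hx1 (not_lt.2 h9)
      rcases h0u'.eq_or_lt with h3 | h3
      · -- no mark before
        refine free_int near dense step (I := Ico v₀ u) isPreconnected_Ico ?_ ⟨le_rfl, hu0⟩
          ⟨hv0.le, hvu⟩ hh₀ hh (hstart _)
        rintro x ⟨hx1, hx2⟩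
        rcases hx1.eq_or_lt with h4 | h4
        · rw [← h4]; exact hf₀
        · exact hfree x (h3 ▸ h4) hx2
      · -- a mark at `u'`
        have hu'1 : u' < v₀ + 1 := hu'u.trans_le hu1
        have hcard : (Finset.univ.filter fun i => s i < u').card < N := by
          rw [← hN]
          apply Finset.card_lt_card
          rw [Finset.ssubset_iff_of_subset]
          · rcases hu'3 with h4 | ⟨i, hi2⟩
            · exact absurd h4 h3.ne'
            · refine ⟨i, ?_, ?_⟩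
              · rw [Finset.mem_filter]
                exact ⟨Finset.mem_univ i, by rw [hi2]; exact hu'u⟩
              · rw [Finset.mem_filter]
                rintro ⟨-, h5⟩
                rw [hi2] at h5
                exact lt_irrefl _ h5
          · intro i hi
            rw [Finset.mem_filter] at hi
            rw [Finset.mem_filter]
            exact ⟨hi.1, hi.2.trans hu'u⟩
        obtain ⟨m', hm'1, hm'2, hm'3, -⟩ := last_before (s := s) h3
        obtain ⟨v1, g1, hv1a, hv1b, hv1c, hg1⟩ := exists_left dense hm'2 (near u')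
        have hR1 : RS R h₀ {i | s i < u'} g1 :=
          ih _ hcard u' h3 hu'1.le rfl v1 g1 (hm'1.trans_lt hv1a) hv1b
            (fun i hi2 => (hm'3 i hi2).trans_lt hv1a) hg1
        obtain ⟨v2, g2, hv2a, hv2b, hv2c, hg2⟩ := exists_right dense hlt (near u')
        obtain ⟨S, hSA, hSR⟩ := hR1
        obtain ⟨S', hS', hR'⟩ := step h₀ u' g1 g2 S (hv1c g1 hg1) (hv2c g2 hg2) hSR
          fun i hi n hn => by
            have h5 : s i < u' := hSA i hi
            rw [hmark u' h0u' hu'1 i n hn] at h5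
            exact lt_irrefl _ h5
        have hR2 : RS R h₀ {i | s i < u} g2 := by
          refine ⟨S', fun i hi => ?_, hR'⟩
          rcases hS' i hi with h4 | ⟨n, h4⟩
          · exact (show s i < u' from hSA i h4).trans hu'u
          · show s i < u
            rw [hmark u' h0u' hu'1 i n h4]
            exact hu'u
        exact free_int near dense step (I := Ioo u' u) isPreconnected_Ioo
          (fun x hx => hfree x hx.1 hx.2) ⟨hv2a, hv2b.trans hvu⟩ ⟨hlt, hvu⟩ hg2 hh hR2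
  obtain ⟨m', hm'1, hm'2, hm'3, -⟩ := last_before (s := s) (v₀ := v₀) (u := v₀ + 1) (by linarith)
  obtain ⟨v, g, hva, hvb, hvc, hg⟩ := exists_left dense hm'2 (near (v₀ + 1))
  have hR : RS R h₀ {i | s i < v₀ + 1} g :=
    key _ (v₀ + 1) (by linarith) le_rfl rfl v g (hm'1.trans_lt hva) hvb
      (fun i hi2 => (hm'3 i hi2).trans_lt hva) hg
  obtain ⟨S, -, hSR⟩ := hR
  have hr := hrot _ _ hh₀
  have hfe : Free V (v₀ + 1) := fun i n h => hf₀ i (n - 1) (by push_cast; linarith)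
  obtain ⟨S', -, hR'⟩ := step h₀ (v₀ + 1) g (rot h₀) S (hvc g hg)
    ((near (v₀ + 1)).self_of_nhds _ hr) hSR fun i _ n => hfe i n
  exact fin v₀ h₀ S' hh₀ hR'

end Vale.Agent.P032.Words.AbsRun
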