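import Vale.Agent.P032.Words5.H819.Pairs

/-!
# Pentagon words: the checker of one pattern and its soundness
-/

namespace Vale.Agent.P032.Words.Pent

open Set Filter Topology

/-- all legal codes -/
def nest (p : ℕ → Bool) : Bool :=
  (List.range 6).all fun x0 => (List.range 6).all fun x1 => !adjN x0 x1 ||
  (List.range 6).all fun x2 => !adjN x1 x2 ||
  (List.range 6).all fun x3 => !(adjN x2 x3 && oppN x0 x3) ||
  (List.range 6).all fun x4 => !(adjN x3 x4 && oppN x1 x4) ||
  (List.range 6).all fun x5 => !(adjN x4 x5 && (adjN x5 x0 && oppN x2 x5)) ||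
  force (x0 + 6 * x1 + 36 * x2 + 216 * x3 + 1296 * x4 + 7776 * x5) p

theorem nest_spec {p : ℕ → Bool} (hp : nest p = true) {h : Hx6} (hl : LegP h) :
    p (code h) = true := by
  obtain ⟨ha, hb⟩ := hl
  have a0 : adjN (h 0).val (h 1).val = true := ha 0
  have a1 : adjN (h 1).val (h 2).val = true := ha 1
  have a2 : adjN (h 2).val (h 3).val = true := ha 2
  have a3 : adjN (h 3).val (h 4).val = true := ha 3
  have a4 : adjN (h 4).val (h 5).val = true := ha 4
  have a5 : adjN (h 5).val (h 0).val = true := ha 5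
  have b0 : oppN (h 0).val (h 3).val = true := hb 0
  have b1 : oppN (h 1).val (h 4).val = true := hb 1
  have b2 : oppN (h 2).val (h 5).val = true := hb 2
  have s0 := all_range hp (h 0).isLt
  have s1 := all_range s0 (h 1).isLt
  simp only [a0, Bool.not_true, Bool.false_or] at s1
  have s2 := all_range s1 (h 2).isLt
  simp only [a1, Bool.not_true, Bool.false_or] at s2
  have s3 := all_range s2 (h 3).isLt
  simp only [a2, b0, Bool.and_self, Bool.not_true, Bool.false_or] at s3
  have s4 := all_range s3 (h 4).isLt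
  simp only [a3, b1, Bool.and_self, Bool.not_true, Bool.false_or] at s4
  have s5 := all_range s4 (h 5).isLt
  simp only [a4, a5, b2, Bool.and_self, Bool.not_true, Bool.false_or, force_eq] at s5
  exact s5

theorem leg_bit : nest (fun c => LEGB.testBit c) = true := by decide +kernel

/-- the data of one pattern: `n` labels, `m` marks, `LB` the labels of the ranks, `CL` the columns of
the reachable labels, `TY` the types of the changes (`6` free, `7` impossible) -/
structure PT2 where
  n : ℕ
  m : ℕ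
  LB : ℕ
  CL : List ℕ
  TY : ℕ

def PT2.lab (P : PT2) (c : ℕ) : ℕ := (P.LB >>> (9 * rk c)) % 512

def PT2.ty (P : PT2) (a b : ℕ) : ℕ := (P.TY >>> (3 * (6 * a + b))) % 8

def PT2.bit (P : PT2) (T b a : ℕ) : Bool := (P.CL.getD T 0).testBit (P.n * b + a)

def PT2.sub (P : PT2) (T a μ b : ℕ) : Bool :=
  force (((P.CL.getD T 0) >>> (P.n * a)) % 2 ^ P.n) fun x =>
    force (((P.CL.getD (T ||| μ) 0) >>> (P.n * b)) % 2 ^ P.n) fun y => (x ||| y) == y

def PT2.stepN (P : PT2) (μ a b : ℕ) : Bool :=
  (List.range (2 ^ P.m)).all fun T => !(T &&& μ == 0) || P.sub T a μ b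

def PT2.chk1 (P : PT2) : Bool :=
  nest fun c => Nat.blt (P.lab c) P.n && (P.bit 0 (P.lab c) (P.lab c) &&
    (((List.range (2 ^ P.m)).all fun T => !P.bit T (P.lab (rotN c)) (P.lab c)) &&
    (List.range 6).all fun k => (List.range 6).all fun l =>
      force (P.ty (dg c k) l) fun t => t == 7 || force (upd c k l) fun c' => !LEGB.testBit c' ||
        ((t == 6 && P.lab c' == P.lab c) ||
          (Nat.blt t 6 && (Nat.blt t P.m && P.stepN (2 ^ t) (P.lab c) (P.lab c'))))))

def PT2.tyk (P : PT2) (c c' k : ℕ) : ℕ := P.ty (dg c k) (dg c' k)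

def PT2.mkk (P : PT2) (c c' k : ℕ) : ℕ := 2 ^ P.tyk c c' k % 64

def PT2.msk (P : PT2) (c c' : ℕ) : ℕ :=
  P.mkk c c' 0 ||| P.mkk c c' 1 ||| P.mkk c c' 2 ||| P.mkk c c' 3 ||| P.mkk c c' 4 ||| P.mkk c c' 5

def PT2.spchk (P : PT2) (c c' : ℕ) : Bool :=
  ((List.range 6).any fun k => P.tyk c c' k == 7) ||
  (((List.range 6).any fun k => (List.range k).any fun j =>
    P.tyk c c' k == P.tyk c c' j && Nat.blt (P.tyk c c' k) 6) ||
  force (P.msk c c') fun μ => Nat.blt μ (2 ^ P.m) && P.stepN μ (P.lab c) (P.lab c'))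

def PT2.chk2 (P : PT2) : Bool :=
  SPT.all fun L => L.all fun x => force (x % 65536) fun c => force (x / 65536) fun c' =>
    P.spchk c c'

/-- all bits of `T'` are bits of `T` or types of changes from `h` to `h'` -/
def Adds (P : PT2) (T T' : ℕ) (h h' : Hx6) : Prop :=
  ∀ i, T'.testBit i = true → T.testBit i = true ∨
    ∃ k, P.ty (h k).val (h' k).val = i ∧ i < 6

/-- the conclusions of the checks -/
structure Good2 (P : PT2) : Prop where
  lt : ∀ h : Hx6, LegP h → P.lab (code h) < P.n
  start : ∀ h : Hx6, LegP h → P.bit 0 (P.lab (code h)) (P.lab (code h)) = true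
  fin : ∀ h : Hx6, LegP h → ∀ T < 2 ^ P.m, P.bit T (P.lab (code (rot h))) (P.lab (code h)) = false
  one : ∀ (h : Hx6) (k l : Fin 6), LegP h → LegP (Function.update h k l) →
    P.ty (h k).val l.val ≠ 7 → ∀ T < 2 ^ P.m,
    (P.ty (h k).val l.val < 6 → T.testBit (P.ty (h k).val l.val) = false) →
    ∀ c0 < P.n, P.bit T (P.lab (code h)) c0 = true → ∃ T' < 2 ^ P.m,
      (∀ i, T'.testBit i = true → T.testBit i = true ∨ (P.ty (h k).val l.val = i ∧ i < 6)) ∧
      P.bit T' (P.lab (code (Function.update h k l))) c0 = true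
  spec : ∀ h h' : Hx6, spN (code h) (code h') = true →
    (∀ k, P.ty (h k).val (h' k).val ≠ 7) →
    (∀ j k, j ≠ k → P.ty (h j).val (h' j).val < 6 →
      P.ty (h j).val (h' j).val ≠ P.ty (h k).val (h' k).val) →
    ∀ T < 2 ^ P.m, (∀ k, P.ty (h k).val (h' k).val < 6 →
      T.testBit (P.ty (h k).val (h' k).val) = false) →
    ∀ c0 < P.n, P.bit T (P.lab (code h)) c0 = true → ∃ T' < 2 ^ P.m, Adds P T T' h h' ∧
      P.bit T' (P.lab (code h')) c0 = true

theorem sub_spec {P : PT2} {T a μ b c0 : ℕ} (h : P.sub T a μ b = true) (hc : c0 < P.n)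
    (hb : P.bit T a c0 = true) : P.bit (T ||| μ) b c0 = true := by
  unfold PT2.sub at h
  rw [force_eq, force_eq, beq_iff_eq] at h
  have h1 := congrArg (fun z => z.testBit c0) h
  simp only [Nat.testBit_or, Nat.testBit_mod_two_pow, Nat.testBit_shiftRight, hc, decide_true,
    Bool.true_and] at h1
  unfold PT2.bit at hb ⊢
  rw [hb, Bool.true_or] at h1
  exact h1.symm

theorem step_spec {P : PT2} {μ a b T c0 : ℕ} (h : P.stepN μ a b = true) (hT : T < 2 ^ P.m)
    (hd : T &&& μ = 0) (hc : c0 < P.n) (hb : P.bit T a c0 = true) :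
    P.bit (T ||| μ) b c0 = true := by
  have h1 := all_range h hT
  rw [hd] at h1
  simp only [beq_self_eq_true, Bool.not_true, Bool.false_or] at h1
  exact sub_spec h1 hc hb

theorem ty_lt (P : PT2) (a b : ℕ) : P.ty a b < 8 := Nat.mod_lt _ (by norm_num)

theorem mk_bit {P : PT2} {c c' k i : ℕ} :
    (P.mkk c c' k).testBit i = true ↔ P.tyk c c' k = i ∧ i < 6 := by
  unfold PT2.mkk
  have e : (64 : ℕ) = 2 ^ 6 := by norm_num
  rw [e, Nat.testBit_mod_two_pow, Nat.testBit_two_pow]
  simp only [Bool.and_eq_true, decide_eq_true_eq]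
  exact and_comm

theorem msk_bit {P : PT2} {c c' i : ℕ} (h : (P.msk c c').testBit i = true) :
    ∃ k : Fin 6, P.tyk c c' k.val = i ∧ i < 6 := by
  unfold PT2.msk at h
  simp only [Nat.testBit_or, Bool.or_eq_true] at h
  rcases h with ((((h | h) | h) | h) | h) | h
  · exact ⟨0, mk_bit.1 h⟩
  · exact ⟨1, mk_bit.1 h⟩
  · exact ⟨2, mk_bit.1 h⟩
  · exact ⟨3, mk_bit.1 h⟩
  · exact ⟨4, mk_bit.1 h⟩
  · exact ⟨5, mk_bit.1 h⟩

theorem and_zero_of {T μ : ℕ} (h : ∀ i, μ.testBit i = true → T.testBit i = false) :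
    T &&& μ = 0 := by
  apply Nat.eq_of_testBit_eq
  intro i
  rw [Nat.testBit_and, Nat.zero_testBit]
  by_cases hi : μ.testBit i = true
  · rw [h i hi]; rfl
  · rw [Bool.not_eq_true] at hi
    rw [hi, Bool.and_false]

theorem tyk_code (P : PT2) (h h' : Hx6) (k : Fin 6) :
    P.tyk (code h) (code h') k.val = P.ty (h k).val (h' k).val := by
  unfold PT2.tyk
  rw [dg_code, dg_code]

theorem good2_of {P : PT2} (h1 : P.chk1 = true) (h2 : P.chk2 = true) : Good2 P := by
  refine ⟨?_, ?_, ?_, ?_, ?_⟩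
  · intro h hl
    have a := nest_spec h1 hl
    rw [Bool.and_eq_true, Nat.blt_eq] at a
    exact a.1
  · intro h hl
    have a := nest_spec h1 hl
    rw [Bool.and_eq_true, Bool.and_eq_true] at a
    exact a.2.1
  · intro h hl T hT
    have a := nest_spec h1 hl
    rw [Bool.and_eq_true, Bool.and_eq_true, Bool.and_eq_true] at a
    have b := all_range a.2.2.1 hT
    rw [code_rot]
    simpa using b
  · intro h k l hl hl' h7 T hT hbit c0 hc hb
    have a := nest_spec h1 hl
    rw [Bool.and_eq_true, Bool.and_eq_true, Bool.and_eq_true] at a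
    have b := all_range (all_range a.2.2.2 k.isLt) l.isLt
    rw [force_eq, force_eq, ← code_update, nest_spec leg_bit hl', dg_code] at b
    simp only [Bool.not_true, Bool.false_or, Bool.and_eq_true, Bool.or_eq_true,
      beq_iff_eq, Nat.blt_eq] at b
    rcases b with b | ⟨-, b⟩ | ⟨h6, b1, b2⟩
    · exact absurd b h7
    · exact ⟨T, hT, fun i hi => Or.inl hi, by rw [b]; exact hb⟩
    · refine ⟨T ||| 2 ^ P.ty (h k).val l.val, Nat.or_lt_two_pow hT
        (Nat.pow_lt_pow_right (by norm_num) b1), ?_, step_spec b2 hT ?_ hc hb⟩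
      · intro i hi
        rw [Nat.testBit_or, Bool.or_eq_true, Nat.testBit_two_pow, decide_eq_true_eq] at hi
        rcases hi with hi | hi
        · exact Or.inl hi
        · exact Or.inr ⟨hi, by omega⟩
      · refine and_zero_of fun i hi => ?_
        rw [Nat.testBit_two_pow, decide_eq_true_eq] at hi
        rw [← hi]
        exact hbit h6
  · intro h h' hs h7 hne T hT hbit c0 hc hb
    obtain ⟨x, hx, hxe⟩ := List.any_eq_true.1 hs
    rw [beq_iff_eq] at hxe
    have hlt := code_lt h
    have hlt' := code_lt h'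
    have hL : SPT.getD (code h % 64) [] ∈ SPT := by
      rw [List.getD_eq_getElem?_getD] at hx ⊢
      cases hg : SPT[code h % 64]? with
      | none => rw [hg] at hx; exact absurd hx (by simp)
      | some L => simpa using List.mem_of_getElem? hg
    have a := List.all_eq_true.1 (List.all_eq_true.1 h2 _ hL) x hx
    have e1 : x % 65536 = code h := by omega
    have e2 : x / 65536 = code h' := by omega
    rw [force_eq, force_eq, e1, e2] at a
    unfold PT2.spchk at a
    rw [Bool.or_eq_true, Bool.or_eq_true, force_eq, Bool.and_eq_true, Nat.blt_eq] at a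
    rcases a with a | a | ⟨a1, a2⟩
    · obtain ⟨k, hk, h3⟩ := List.any_eq_true.1 a
      rw [List.mem_range] at hk
      rw [beq_iff_eq] at h3
      exact absurd ((tyk_code P h h' ⟨k, hk⟩).symm.trans h3) (h7 _)
    · obtain ⟨k, hk, h3⟩ := List.any_eq_true.1 a
      rw [List.mem_range] at hk
      obtain ⟨j, hj, h4⟩ := List.any_eq_true.1 h3
      rw [List.mem_range] at hj
      rw [Bool.and_eq_true, beq_iff_eq, Nat.blt_eq] at h4
      have e3 := tyk_code P h h' ⟨k, hk⟩
      have e4 := tyk_code P h h' ⟨j, hj.trans hk⟩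
      have e5 : P.tyk (code h) (code h') k = P.ty (h ⟨k, hk⟩).val (h' ⟨k, hk⟩).val := e3
      have e6 : P.tyk (code h) (code h') j =
        P.ty (h ⟨j, hj.trans hk⟩).val (h' ⟨j, hj.trans hk⟩).val := e4
      exfalso
      refine hne ⟨k, hk⟩ ⟨j, hj.trans hk⟩ (fun h5 => ?_) (by rw [← e5]; exact h4.2)
        (by rw [← e5, ← e6]; exact h4.1)
      have := congrArg Fin.val h5
      simp only at this
      omega
    · refine ⟨T ||| P.msk (code h) (code h'), Nat.or_lt_two_pow hT a1, ?_,
        step_spec a2 hT ?_ hc hb⟩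
      · intro i hi
        rw [Nat.testBit_or, Bool.or_eq_true] at hi
        rcases hi with hi | hi
        · exact Or.inl hi
        · obtain ⟨k, hk, h6⟩ := msk_bit hi
          exact Or.inr ⟨k, by rw [← tyk_code]; exact hk, h6⟩
      · refine and_zero_of fun i hi => ?_
        obtain ⟨k, hk, h6⟩ := msk_bit hi
        rw [tyk_code] at hk
        rw [← hk]
        exact hbit k (by rw [hk]; exact h6)

end Vale.Agent.P032.Words.Pent
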