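import Vale.Agent.P032.Words5.H819.Pairs

/-!
# Pentagon words: pairs of hexagons, first letter 1
-/

namespace Vale.Agent.P032.Words.Pent

theorem pa6 : pairsAt 6 = true := by decide +kernel

theorem pa7 : pairsAt 7 = true := by decide +kernel

theorem pa8 : pairsAt 8 = true := by decide +kernel

theorem pa11 : pairsAt 11 = true := by decide +kernel

end Vale.Agent.P032.Words.Pent
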