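import Vale.Agent.P032.Words5.H819.Pairs

/-!
# Pentagon words: pairs of hexagons, first letter 2
-/

namespace Vale.Agent.P032.Words.Pent

theorem pa13 : pairsAt 13 = true := by decide +kernel

theorem pa14 : pairsAt 14 = true := by decide +kernel

theorem pa15 : pairsAt 15 = true := by decide +kernel

theorem pa17 : pairsAt 17 = true := by decide +kernel

end Vale.Agent.P032.Words.Pent
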