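import Vale.Agent.P032.Words5.H819.Pairs

/-!
# Pentagon words: pairs of hexagons, first letter 3
-/

namespace Vale.Agent.P032.Words.Pent

theorem pa20 : pairsAt 20 = true := by decide +kernel

theorem pa21 : pairsAt 21 = true := by decide +kernel

theorem pa22 : pairsAt 22 = true := by decide +kernel

theorem pa23 : pairsAt 23 = true := by decide +kernel

end Vale.Agent.P032.Words.Pent
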