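import Vale.Agent.P032.Words5.H819.Pairs

/-!
# Pentagon words: pairs of hexagons, first letter 4
-/

namespace Vale.Agent.P032.Words.Pent

theorem pa24 : pairsAt 24 = true := by decide +kernel

theorem pa27 : pairsAt 27 = true := by decide +kernel

theorem pa28 : pairsAt 28 = true := by decide +kernel

theorem pa29 : pairsAt 29 = true := by decide +kernel

end Vale.Agent.P032.Words.Pent
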