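import Vale.Agent.P032.Words5.H819.Pairs

/-!
# Pentagon words: pairs of hexagons, first letter 5
-/

namespace Vale.Agent.P032.Words.Pent

theorem pa30 : pairsAt 30 = true := by decide +kernel

theorem pa31 : pairsAt 31 = true := by decide +kernel

theorem pa32 : pairsAt 32 = true := by decide +kernel

theorem pa33 : pairsAt 33 = true := by decide +kernel

theorem pa34 : pairsAt 34 = true := by decide +kernel

theorem pa35 : pairsAt 35 = true := by decide +kernel

end Vale.Agent.P032.Words.Pent
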