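import Vale.Agent.P032.Words5.H819.Pr0
import Vale.Agent.P032.Words5.H819.Pr1
import Vale.Agent.P032.Words5.H819.Pr2
import Vale.Agent.P032.Words5.H819.Pr3
import Vale.Agent.P032.Words5.H819.Pr4
import Vale.Agent.P032.Words5.H819.Pr5

/-!
# Pentagon words: every pair of hexagons is reducible, special or frozen
-/

namespace Vale.Agent.P032.Words.Pent

theorem pairs_all {s : ℕ} (hs : s ∈ SL) : pairsAt s = true := by
  simp only [SL, List.mem_cons, List.not_mem_nil, or_false] at hs
  rcases hs with rfl | rfl | rfl | rfl | rfl | rfl | rfl | rfl | rfl | rfl | rfl | rfl | rfl |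
    rfl | rfl | rfl | rfl | rfl | rfl | rfl | rfl | rfl | rfl | rfl | rfl | rfl
  exacts [pa0, pa1, pa4, pa5, pa6, pa7, pa8, pa11, pa13, pa14, pa15, pa17, pa20, pa21, pa22, pa23,
    pa24, pa27, pa28, pa29, pa30, pa31, pa32, pa33, pa34, pa35]

end Vale.Agent.P032.Words.Pent
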