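import Vale.Agent.P032.Words5.H819.Path

/-!
# Pentagon words: letters, legal hexagons, codes

Letters `0, .., 4` are the five diagonals `E_0, .., E_4` of a pentagon in the order of their lines, the
letter `5` is the colour `f` which is missing at the centre.  Neighbours (at distance one) are disjoint:
`E_a` and `E_b` with `a - b = ± 2` or exactly one `f`.  Antipodal diagonals have difference `0, ± 1`.
-/

namespace Vale.Agent.P032.Words.Pent

/-- digit `k` of `n` in base 6 -/
def dg (n k : ℕ) : ℕ := (n / 6 ^ k) % 6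

/-- change of digit `k` to `l` -/
def upd (n k l : ℕ) : ℕ := n - dg n k * 6 ^ k + l * 6 ^ k

/-- rotation of the digits -/
def rotN (n : ℕ) : ℕ := n / 6 + (n % 6) * 7776

/-- neighbours -/
def adjN (a b : ℕ) : Bool :=
  if a == 5 then b != 5 else b == 5 || (a + 5 - b) % 5 == 2 || (a + 5 - b) % 5 == 3

/-- antipodal letters -/
def oppN (a b : ℕ) : Bool :=
  a == 5 || b == 5 || (a + 5 - b) % 5 == 0 || (a + 5 - b) % 5 == 1 || (a + 5 - b) % 5 == 4

/-- legality of a code -/
def legN (n : ℕ) : Bool :=
  adjN (dg n 0) (dg n 1) && adjN (dg n 1) (dg n 2) && adjN (dg n 2) (dg n 3) &&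
  adjN (dg n 3) (dg n 4) && adjN (dg n 4) (dg n 5) && adjN (dg n 5) (dg n 0) &&
  oppN (dg n 0) (dg n 3) && oppN (dg n 1) (dg n 4) && oppN (dg n 2) (dg n 5)

/-- evaluate the argument first -/
def force {α : Type} (x : ℕ) (f : ℕ → α) : α := match x with
  | 0 => f 0
  | k + 1 => f (k + 1)

theorem force_eq {α : Type} (x : ℕ) (f : ℕ → α) : force x f = f x := by cases x <;> rfl

/-- hexagons with letters `E_0, .., E_4, f` -/
abbrev Hx6 := Fin 6 → Fin 6

/-- the code of a hexagon -/
def code (h : Hx6) : ℕ :=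
  (h 0).val + 6 * (h 1).val + 36 * (h 2).val + 216 * (h 3).val + 1296 * (h 4).val + 7776 * (h 5).val

/-- legal hexagons -/
def LegP (h : Hx6) : Prop :=
  (∀ k, adjN (h k).val (h (k + 1)).val = true) ∧ ∀ k, oppN (h k).val (h (k + 3)).val = true

theorem code_lt (h : Hx6) : code h < 46656 := by
  have h0 := (h 0).isLt
  have h1 := (h 1).isLt
  have h2 := (h 2).isLt
  have h3 := (h 3).isLt
  have h4 := (h 4).isLt
  have h5 := (h 5).isLt
  unfold code
  omega

theorem dg_code (h : Hx6) (k : Fin 6) : dg (code h) k.val = (h k).val := by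
  have h0 := (h 0).isLt
  have h1 := (h 1).isLt
  have h2 := (h 2).isLt
  have h3 := (h 3).isLt
  have h4 := (h 4).isLt
  have h5 := (h 5).isLt
  fin_cases k <;> simp only [dg, code, Fin.zero_eta, Fin.mk_one, Fin.reduceFinMk] <;> norm_num <;> omega

theorem code_update (h : Hx6) (k : Fin 6) (l : Fin 6) :
    code (Function.update h k l) = upd (code h) k.val l.val := by
  have hd := dg_code h k
  unfold upd
  rw [hd]
  have h0 := (h 0).isLt
  have h1 := (h 1).isLt
  have h2 := (h 2).isLt
  have h3 := (h 3).isLt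
  have h4 := (h 4).isLt
  have h5 := (h 5).isLt
  fin_cases k <;> simp [code, Function.update] <;> omega

theorem code_rot (h : Hx6) : code (rot h) = rotN (code h) := by
  have h0 := (h 0).isLt
  have h1 := (h 1).isLt
  have h2 := (h 2).isLt
  have h3 := (h 3).isLt
  have h4 := (h 4).isLt
  have h5 := (h 5).isLt
  have e0 : rot h 0 = h 1 := rfl
  have e1 : rot h 1 = h 2 := rfl
  have e2 : rot h 2 = h 3 := rfl
  have e3 : rot h 3 = h 4 := rfl
  have e4 : rot h 4 = h 5 := rfl
  have e5 : rot h 5 = h 0 := rfl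
  unfold rotN code
  rw [e0, e1, e2, e3, e4, e5]
  omega

theorem legN_code {h : Hx6} (hl : LegP h) : legN (code h) = true := by
  obtain ⟨ha, hb⟩ := hl
  have d : ∀ k : Fin 6, dg (code h) k.val = (h k).val := dg_code h
  have d0 : dg (code h) 0 = (h 0).val := d 0
  have d1 : dg (code h) 1 = (h 1).val := d 1
  have d2 : dg (code h) 2 = (h 2).val := d 2
  have d3 : dg (code h) 3 = (h 3).val := d 3
  have d4 : dg (code h) 4 = (h 4).val := d 4
  have d5 : dg (code h) 5 = (h 5).val := d 5
  have a0 : adjN (h 0).val (h 1).val = true := ha 0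
  have a1 : adjN (h 1).val (h 2).val = true := ha 1
  have a2 : adjN (h 2).val (h 3).val = true := ha 2
  have a3 : adjN (h 3).val (h 4).val = true := ha 3
  have a4 : adjN (h 4).val (h 5).val = true := ha 4
  have a5 : adjN (h 5).val (h 0).val = true := ha 5
  have b0 : oppN (h 0).val (h 3).val = true := hb 0
  have b1 : oppN (h 1).val (h 4).val = true := hb 1
  have b2 : oppN (h 2).val (h 5).val = true := hb 2
  unfold legN
  rw [d0, d1, d2, d3, d4, d5, a0, a1, a2, a3, a4, a5, b0, b1, b2]
  rfl

theorem all_range {n : ℕ} {p : ℕ → Bool} (h : (List.range n).all p = true) {i : ℕ} (hi : i < n) :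
    p i = true := List.all_eq_true.mp h i (List.mem_range.mpr hi)

end Vale.Agent.P032.Words.Pent
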