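import Vale.Agent.P032.Words5.H819.Pair
import Vale.Agent.P032.Words5.H819.Chk2
import Vale.Agent.P032.Words5.H819.Dec

/-!
# Pentagon words: the changes at one angle
-/

namespace Vale.Agent.P032.Words.Pent

open Set Filter Topology

variable {X : Fin 6 → Set ℝ}

/-- the word of a clean five coloured centre without frozen events (no counting rule) -/
structure Word5s (X : Fin 6 → Set ℝ) : Prop where
  closed : ∀ l, IsClosed (X l)
  per : ∀ l u, u + 6 ∈ X l ↔ u ∈ X l
  cover : ∀ u, ∃ l, u ∈ X l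
  gen : Dense {u : ℝ | ∃ l, ∀ m, u ∈ X m ↔ m = l}
  tog : ∀ u l m, u ∈ X l → u ∈ X m → tgN l.val m.val = true
  sixty : ∀ u l m, (∀ n, u ∈ X n ↔ n = l) → (∀ n, u + 1 ∈ X n ↔ n = m) →
    adjN l.val m.val = true
  anti : ∀ u l m, (∀ n, u ∈ X n ↔ n = l) → (∀ n, u + 3 ∈ X n ↔ n = m) →
    oppN l.val m.val = true
  swap1 : ∀ u a a' b b', u ∈ X a → u ∈ X a' → u + 1 ∈ X b → u + 1 ∈ X b' →
    adjN a.val b.val = true → adjN a'.val b'.val = true →
    adjN a.val b'.val = true ∨ adjN a'.val b.val = true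
  swap3 : ∀ u a a' b b', u ∈ X a → u ∈ X a' → u + 3 ∈ X b → u + 3 ∈ X b' →
    oppN a.val b.val = true → oppN a'.val b'.val = true →
    oppN a.val b'.val = true ∨ oppN a'.val b.val = true
  nofrs : ∀ (i : Fin 3) (a : Fin 5) (s : Bool) (q : Fin 6) (t : Bool) (u : ℝ),
    (∀ k : Fin 6, u + (k.val : ℝ) ∈ X (trH a s q t (fx i) k)) →
    (∀ k : Fin 6, u + (k.val : ℝ) ∈ X (trH a s q t (fy i) k)) → False

theorem Word5.strong (w : Word5 X) (hc : ∀ u, ∃ l, u ∈ X l)
    (hn : ∀ (i : Fin 3) (a : Fin 5) (s : Bool) (q : Fin 6) (t : Bool) (u : ℝ),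
      (∀ k : Fin 6, u + (k.val : ℝ) ∈ X (trH a s q t (fx i) k)) →
      (∀ k : Fin 6, u + (k.val : ℝ) ∈ X (trH a s q t (fy i) k)) → False) : Word5s X :=
  ⟨w.closed, w.per, hc, w.gen, w.tog, w.sixty, w.anti, w.swap1, w.swap3, hn⟩

/-- hexagons in the palettes at the angle `u` -/
def Hp (X : Fin 6 → Set ℝ) (u : ℝ) (h : Hx6) : Prop :=
  LegP h ∧ ∀ k : Fin 6, u + (k.val : ℝ) ∈ X (h k)

/-- a rotation of the positions -/
theorem pos_rot (hper : ∀ l u, u + 6 ∈ X l ↔ u ∈ X l) (u : ℝ) (q k : Fin 6) (l : Fin 6) :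
    u + (q.val : ℝ) + (k.val : ℝ) ∈ X l ↔ u + ((q + k : Fin 6).val : ℝ) ∈ X l := by
  have hk := k.isLt
  have hq := q.isLt
  have e : (q + k : Fin 6).val = (q.val + k.val) % 6 := Fin.val_add q k
  by_cases h : q.val + k.val < 6
  · rw [e, Nat.mod_eq_of_lt h]
    have : u + (q.val : ℝ) + (k.val : ℝ) = u + ((q.val + k.val : ℕ) : ℝ) := by push_cast; ring
    rw [this]
  · have e2 : (q.val + k.val) % 6 = q.val + k.val - 6 := by omega
    rw [e, e2, ← hper l (u + ((q.val + k.val - 6 : ℕ) : ℝ))]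
    have : u + ((q.val + k.val - 6 : ℕ) : ℝ) + 6 = u + (q.val : ℝ) + (k.val : ℝ) := by
      rw [Nat.cast_sub (not_lt.1 h)]; push_cast; ring
    rw [this]

theorem pos1 (hper : ∀ l u, u + 6 ∈ X l ↔ u ∈ X l) (u : ℝ) (k : Fin 6) (l : Fin 6) :
    u + (k.val : ℝ) + 1 ∈ X l ↔ u + ((k + 1 : Fin 6).val : ℝ) ∈ X l := by
  have := pos_rot hper u k 1 l
  have e : ((1 : Fin 6).val : ℝ) = 1 := by norm_num
  rwa [e] at this

theorem pos3 (hper : ∀ l u, u + 6 ∈ X l ↔ u ∈ X l) (u : ℝ) (k : Fin 6) (l : Fin 6) :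
    u + (k.val : ℝ) + 3 ∈ X l ↔ u + ((k + 3 : Fin 6).val : ℝ) ∈ X l := by
  have := pos_rot hper u k 3 l
  have e : ((3 : Fin 6).val : ℝ) = 3 := by
    have : (3 : Fin 6).val = 3 := rfl
    rw [this]; norm_num
  rwa [e] at this

theorem Word5s.leg_of (w : Word5s X) {v : ℝ} {h : Hx6} (hv : Hat X v h) : LegP h := by
  constructor
  · intro k
    exact w.sixty (v + (k.val : ℝ)) _ _ (hv k) fun n => by rw [pos1 w.per]; exact hv (k + 1) n
  · intro k
    exact w.anti (v + (k.val : ℝ)) _ _ (hv k) fun n => by rw [pos3 w.per]; exact hv (k + 3) n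

theorem Word5s.pairH (w : Word5s X) {u : ℝ} {h h' : Hx6} (a : Hp X u h) (b : Hp X u h') :
    PairH h h' where
  leg := a.1
  leg' := b.1
  tg k := w.tog _ _ _ (a.2 k) (b.2 k)
  s1 k := w.swap1 (u + (k.val : ℝ)) _ _ _ _ (a.2 k) (b.2 k) ((pos1 w.per u k _).2 (a.2 (k + 1)))
    ((pos1 w.per u k _).2 (b.2 (k + 1))) (a.1.1 k) (b.1.1 k)
  s3 k := w.swap3 (u + (k.val : ℝ)) _ _ _ _ (a.2 k) (b.2 k) ((pos3 w.per u k _).2 (a.2 (k + 3)))
    ((pos3 w.per u k _).2 (b.2 (k + 3))) (a.1.2 k) (b.1.2 k)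

theorem Word5s.no_fr (w : Word5s X) {u : ℝ} {h h' : Hx6} (a : Hp X u h) (b : Hp X u h')
    (hf : frN (code h) (code h') = true) : False := by
  obtain ⟨n, ⟨rfl, rfl⟩ | ⟨rfl, rfl⟩⟩ := fr_of hf
  · exact w.nofrs _ _ _ _ _ u a.2 b.2
  · exact w.nofrs _ _ _ _ _ u b.2 a.2

/-- near an angle the hexagons are in the palettes of the angle -/
theorem Word5s.near (w : Word5s X) (u : ℝ) : ∀ᶠ v in 𝓝 u, ∀ h, Hat X v h → Hp X u h := by
  have h1 : ∀ᶠ v in 𝓝 u, ∀ k m : Fin 6, v + (k.val : ℝ) ∈ X m → u + (k.val : ℝ) ∈ X m := by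
    rw [Filter.eventually_all]
    intro k
    rw [Filter.eventually_all]
    intro m
    by_cases hm : u + (k.val : ℝ) ∈ X m
    · exact Eventually.of_forall fun _ _ => hm
    · have h2 : Tendsto (fun v : ℝ => v + (k.val : ℝ)) (𝓝 u) (𝓝 (u + (k.val : ℝ))) :=
        (continuous_add_const _).tendsto u
      filter_upwards [h2.eventually ((w.closed m).isOpen_compl.mem_nhds hm)] with v hv h3
      exact absurd h3 hv
  filter_upwards [h1] with v hv h hh
  exact ⟨w.leg_of hh, fun k => hv k _ ((hh k _).2 rfl)⟩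

/-- the angles with a hexagon are dense -/
theorem Word5s.dense_hat (w : Word5s X) : Dense {v : ℝ | ∃ h, Hat X v h} := by
  set S : Set ℝ := {u : ℝ | ∃ l, ∀ m, u ∈ X m ↔ m = l} with hS
  have hopen : IsOpen S := by
    rw [isOpen_iff_mem_nhds]
    rintro u ⟨l, hl⟩
    have h1 : ∀ᶠ v in 𝓝 u, ∀ m, m ≠ l → v ∉ X m := by
      rw [Filter.eventually_all]
      intro m
      by_cases hm : m = l
      · exact Eventually.of_forall fun v h => absurd hm h
      · have h2 : u ∈ (X m)ᶜ := fun h => hm ((hl m).1 h)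
        filter_upwards [(w.closed m).isOpen_compl.mem_nhds h2] with v hv _ using hv
    filter_upwards [h1] with v hv
    obtain ⟨m, hm⟩ := w.cover v
    have e : m = l := by
      by_contra hne
      exact hv m hne hm
    subst e
    exact ⟨m, fun n => ⟨fun hn => by_contra fun hne => hv n hne hn, fun hn => hn ▸ hm⟩⟩
  have h2 : ∀ k : Fin 6, IsOpen ((fun v : ℝ => v + (k.val : ℝ)) ⁻¹' S) :=
    fun k => hopen.preimage (continuous_add_const _)
  have h3 : ∀ k : Fin 6, Dense ((fun v : ℝ => v + (k.val : ℝ)) ⁻¹' S) := by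
    intro k
    have h4 := w.gen.preimage (Homeomorph.addRight ((k.val : ℝ))).isOpenMap
    exact h4
  have h5 := dense_iInter_of_isOpen h2 h3
  refine h5.mono fun v hv => ?_
  rw [mem_iInter] at hv
  choose h hh using hv
  exact ⟨h, fun k m => hh k m⟩

/-- the types of the changes -/
structure Ty (P : PT2) (X : Fin 6 → Set ℝ) (τ : ℕ → ℝ) : Prop where
  no7 : ∀ u a b, u ∈ X a → u ∈ X b → P.ty a.val b.val ≠ 7
  mark : ∀ u a b, u ∈ X a → u ∈ X b → P.ty a.val b.val < 6 →
    ∃ n : ℤ, u = τ (P.ty a.val b.val) + 6 * (n : ℝ)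
  refl : ∀ a : Fin 6, P.ty a.val a.val = 6

theorem Ty.inj {P : PT2} {τ : ℕ → ℝ} (t : Ty P X τ) {u : ℝ} {h h' : Hx6} (a : Hp X u h)
    (b : Hp X u h') {j k : Fin 6} (hj : P.ty (h j).val (h' j).val < 6)
    (he : P.ty (h j).val (h' j).val = P.ty (h k).val (h' k).val) : j = k := by
  obtain ⟨n, hn⟩ := t.mark _ _ _ (a.2 j) (b.2 j) hj
  obtain ⟨m, hm⟩ := t.mark _ _ _ (a.2 k) (b.2 k) (he ▸ hj)
  rw [he] at hn
  have h3 : (j.val : ℝ) - (k.val : ℝ) = 6 * ((n - m : ℤ) : ℝ) := by push_cast; linarith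
  have h4 : ((j.val : ℤ) - (k.val : ℤ)) = 6 * (n - m) := by
    have : (((j.val : ℤ) - (k.val : ℤ) : ℤ) : ℝ) = ((6 * (n - m) : ℤ) : ℝ) := by
      push_cast at h3 ⊢; linarith
    exact_mod_cast this
  have h5 := j.isLt
  have h6 := k.isLt
  apply Fin.ext
  omega

/-- **The changes at one angle** -/
theorem Word5s.event (w : Word5s X) {P : PT2} (G : Good2 P) {τ : ℕ → ℝ} (t : Ty P X τ) {u : ℝ}
    {c0 : ℕ} (hc0 : c0 < P.n) : ∀ (N : ℕ) (h h' : Hx6), Hp X u h → Hp X u h' →
    (Finset.univ.filter fun k => h k ≠ h' k).card = N → ∀ T < 2 ^ P.m,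
    (∀ k, P.ty (h k).val (h' k).val < 6 → T.testBit (P.ty (h k).val (h' k).val) = false) →
    P.bit T (P.lab (code h)) c0 = true →
    ∃ T' < 2 ^ P.m, Adds P T T' h h' ∧ P.bit T' (P.lab (code h')) c0 = true := by
  intro N
  induction N using Nat.strong_induction_on with
  | _ N ih =>
    intro h h' a b hN T hT hbit hD
    have p := w.pairH a b
    rcases cases_of (leaf_of p (pairs_all (stP_mem p 0))) with h1 | ⟨k, hk, hl⟩ | h1 | h1
    · subst h1
      exact ⟨T, hT, fun i hi => Or.inl hi, hD⟩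
    · -- one change
      have a' : Hp X u (Function.update h k (h' k)) := by
        refine ⟨hl, fun j => ?_⟩
        by_cases hj : j = k
        · subst hj; rw [Function.update_self]; exact b.2 j
        · rw [Function.update_of_ne hj]; exact a.2 j
      obtain ⟨T1, hT1, hA1, hD1⟩ := G.one h k (h' k) a.1 hl (t.no7 _ _ _ (a.2 k) (b.2 k)) T hT
        (hbit k) c0 hc0 hD
      have hcard : (Finset.univ.filter fun j => Function.update h k (h' k) j ≠ h' j).card < N := by
        rw [← hN]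
        apply Finset.card_lt_card
        rw [Finset.ssubset_iff_of_subset]
        · refine ⟨k, ?_, ?_⟩
          · rw [Finset.mem_filter]; exact ⟨Finset.mem_univ k, hk⟩
          · rw [Finset.mem_filter, Function.update_self]
            rintro ⟨-, h2⟩
            exact h2 rfl
        · intro j hj
          rw [Finset.mem_filter] at hj ⊢
          refine ⟨hj.1, ?_⟩
          by_cases hjk : j = k
          · subst hjk; exact hk
          · have := hj.2
            rwa [Function.update_of_ne hjk] at this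
      have key : ∀ j, P.ty (Function.update h k (h' k) j).val (h' j).val < 6 →
          j ≠ k ∧ P.ty (Function.update h k (h' k) j).val (h' j).val =
            P.ty (h j).val (h' j).val := by
        intro j hj
        by_cases hjk : j = k
        · subst hjk
          rw [Function.update_self, t.refl] at hj
          exact absurd hj (by norm_num)
        · exact ⟨hjk, by rw [Function.update_of_ne hjk]⟩
      obtain ⟨T2, hT2, hA2, hD2⟩ := ih _ hcard (Function.update h k (h' k)) h' a' b rfl T1 hT1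
        (fun j hj => by
          obtain ⟨hjk, he⟩ := key j hj
          rw [he] at hj ⊢
          by_contra hcon
          rw [Bool.not_eq_false] at hcon
          rcases hA1 _ hcon with h2 | ⟨h2, h3⟩
          · rw [hbit j hj] at h2; exact absurd h2 (by decide)
          · exact hjk (t.inj a b (h2.symm ▸ h3) h2).symm) hD1
      refine ⟨T2, hT2, fun i hi => ?_, hD2⟩
      rcases hA2 i hi with h2 | ⟨j, h2, h3⟩
      · rcases hA1 i h2 with h4 | ⟨h4, h5⟩
        · exact Or.inl h4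
        · exact Or.inr ⟨k, h4, h5⟩
      · obtain ⟨-, he⟩ := key j (h2 ▸ h3)
        exact Or.inr ⟨j, he ▸ h2, h3⟩
    · exact G.spec h h' h1 (fun k => t.no7 _ _ _ (a.2 k) (b.2 k))
        (fun j k hjk hj he => hjk (t.inj a b hj he)) T hT hbit c0 hc0 hD
    · exact (w.no_fr a b h1).elim

end Vale.Agent.P032.Words.Pent
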