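import Vale.Agent.P032.Words5.H819.Run

/-!
# Pentagon words: types of contacts, renaming, reduction to six patterns

Contacts of index `j`: `t_j` = common points of `E_j` and `5`, `c_j` = common points of `E_(j+2)` and
`E_(j+3)`.  Kinds: `0` no `t_j`; `1` `c_j` is one class modulo 6; `2` both are one class; `3` no `c_j`;
`4` `t_j` is one class; `5` nothing.
-/

namespace Vale.Agent.P032.Words.Pent

open Set Filter Topology

variable {X : Fin 6 → Set ℝ}

def NoT (X : Fin 6 → Set ℝ) (j : Fin 5) : Prop := ∀ u, u ∈ X (EL j.val) → u ∉ X 5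

def NoC (X : Fin 6 → Set ℝ) (j : Fin 5) : Prop :=
  ∀ u, u ∈ X (EL (j.val + 2)) → u ∉ X (EL (j.val + 3))

def OneT (X : Fin 6 → Set ℝ) (j : Fin 5) : Prop :=
  ∃ τ : ℝ, ∀ u, u ∈ X (EL j.val) → u ∈ X 5 → ∃ n : ℤ, u = τ + 6 * (n : ℝ)

def OneC (X : Fin 6 → Set ℝ) (j : Fin 5) : Prop :=
  ∃ τ : ℝ, ∀ u, u ∈ X (EL (j.val + 2)) → u ∈ X (EL (j.val + 3)) →
    ∃ n : ℤ, u = τ + 6 * (n : ℝ)

/-- the hypothesis of kind `c` on the contacts of index `j` -/
def Hc (X : Fin 6 → Set ℝ) (c : ℕ) (j : Fin 5) : Prop :=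
  (c = 0 → NoT X j) ∧ (c = 1 → OneC X j) ∧ (c = 2 → OneT X j ∧ OneC X j) ∧ (c = 3 → NoC X j) ∧
    (c = 4 → OneT X j)

/-- the kind `c` follows from the kind `p` -/
def leC (p c : ℕ) : Bool :=
  c == 5 || p == c || (p == 0 && c == 4) || (p == 3 && c == 1) || (p == 2 && (c == 1 || c == 4))

theorem Hc.mono {p c : ℕ} {j : Fin 5} (h : Hc X p j) (hle : leC p c = true) : Hc X c j := by
  obtain ⟨h0, h1, h2, h3, h4⟩ := h
  simp only [leC, Bool.or_eq_true, Bool.and_eq_true, beq_iff_eq] at hle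
  rcases hle with (((rfl | rfl) | ⟨rfl, rfl⟩) | ⟨rfl, rfl⟩) | ⟨rfl, rfl | rfl⟩
  · exact ⟨fun h => absurd h (by decide), fun h => absurd h (by decide),
      fun h => absurd h (by decide), fun h => absurd h (by decide), fun h => absurd h (by decide)⟩
  · exact ⟨h0, h1, h2, h3, h4⟩
  · exact ⟨fun h => absurd h (by decide), fun h => absurd h (by decide),
      fun h => absurd h (by decide), fun h => absurd h (by decide),
      fun _ => ⟨0, fun u hu hu' => absurd hu' (h0 rfl u hu)⟩⟩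
  · exact ⟨fun h => absurd h (by decide), fun _ => ⟨0, fun u hu hu' => absurd hu' (h3 rfl u hu)⟩,
      fun h => absurd h (by decide), fun h => absurd h (by decide), fun h => absurd h (by decide)⟩
  · exact ⟨fun h => absurd h (by decide), fun _ => (h2 rfl).2, fun h => absurd h (by decide),
      fun h => absurd h (by decide), fun h => absurd h (by decide)⟩
  · exact ⟨fun h => absurd h (by decide), fun h => absurd h (by decide),
      fun h => absurd h (by decide), fun h => absurd h (by decide), fun _ => (h2 rfl).1⟩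

/-- the index `a + j` or `a - j` -/
def actI (a : Fin 5) (s : Bool) (j : Fin 5) : Fin 5 := if s then a - j else a + j

theorem map_t : ∀ (a : Fin 5) (s : Bool) (j : Fin 5),
    mapL a s (EL j.val) = EL (actI a s j).val := by decide

theorem map_c : ∀ (a : Fin 5) (s : Bool) (j : Fin 5),
    (mapL a s (EL (j.val + 2)) = EL ((actI a s j).val + 2) ∧
      mapL a s (EL (j.val + 3)) = EL ((actI a s j).val + 3)) ∨
    (mapL a s (EL (j.val + 2)) = EL ((actI a s j).val + 3) ∧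
      mapL a s (EL (j.val + 3)) = EL ((actI a s j).val + 2)) := by decide

theorem map_5 : ∀ (a : Fin 5) (s : Bool), mapL a s 5 = 5 := by decide

theorem map_inj : ∀ (a : Fin 5) (s : Bool) (l m : Fin 6), mapL a s l = mapL a s m → l = m := by
  decide

theorem map_surj (a : Fin 5) (s : Bool) (m : Fin 6) : ∃ l, mapL a s l = m :=
  (Finite.injective_iff_surjective.1 fun l m h => map_inj a s l m h) m

theorem map_adj : ∀ (a : Fin 5) (s : Bool) (l m : Fin 6),
    adjN (mapL a s l).val (mapL a s m).val = adjN l.val m.val := by decide +kernel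

theorem map_opp : ∀ (a : Fin 5) (s : Bool) (l m : Fin 6),
    oppN (mapL a s l).val (mapL a s m).val = oppN l.val m.val := by decide +kernel

theorem map_tg : ∀ (a : Fin 5) (s : Bool) (l m : Fin 6),
    tgN (mapL a s l).val (mapL a s m).val = tgN l.val m.val := by decide +kernel

theorem map_map : ∀ (a : Fin 5) (s : Bool) (b : Fin 5) (r : Bool) (l : Fin 6),
    mapL a s (mapL b r l) = mapL (actI a s b) (if s then !r else r) l := by decide +kernel

/-- **Renaming** of the letters of a pentagon word. -/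
theorem Word5s.ren (w : Word5s X) (a : Fin 5) (s : Bool) : Word5s (fun l => X (mapL a s l)) where
  closed l := w.closed _
  cover u := by
    obtain ⟨m, hm⟩ := w.cover u
    obtain ⟨l, rfl⟩ := map_surj a s m
    exact ⟨l, hm⟩
  per l u := w.per _ u
  gen := by
    refine w.gen.mono ?_
    rintro u ⟨m, hm⟩
    obtain ⟨l, rfl⟩ := map_surj a s m
    exact ⟨l, fun n => ⟨fun hn => map_inj a s n l ((hm _).1 hn), fun hn => by
      rw [hn]; exact (hm _).2 rfl⟩⟩
  tog u l m hl hm := by rw [← map_tg a s]; exact w.tog u _ _ hl hm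
  sixty u l m hl hm := by
    rw [← map_adj a s]
    refine w.sixty u _ _ (fun n => ?_) fun n => ?_
    · obtain ⟨n', rfl⟩ := map_surj a s n
      exact (hl n').trans ⟨fun h => by rw [h], fun h => map_inj a s _ _ h⟩
    · obtain ⟨n', rfl⟩ := map_surj a s n
      exact (hm n').trans ⟨fun h => by rw [h], fun h => map_inj a s _ _ h⟩
  anti u l m hl hm := by
    rw [← map_opp a s]
    refine w.anti u _ _ (fun n => ?_) fun n => ?_
    · obtain ⟨n', rfl⟩ := map_surj a s n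
      exact (hl n').trans ⟨fun h => by rw [h], fun h => map_inj a s _ _ h⟩
    · obtain ⟨n', rfl⟩ := map_surj a s n
      exact (hm n').trans ⟨fun h => by rw [h], fun h => map_inj a s _ _ h⟩
  swap1 u l l' m m' h1 h2 h3 h4 h5 h6 := by
    rw [← map_adj a s] at h5 h6
    rw [← map_adj a s l m', ← map_adj a s l' m]
    exact w.swap1 u _ _ _ _ h1 h2 h3 h4 h5 h6
  swap3 u l l' m m' h1 h2 h3 h4 h5 h6 := by
    rw [← map_opp a s] at h5 h6
    rw [← map_opp a s l m', ← map_opp a s l' m]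
    exact w.swap3 u _ _ _ _ h1 h2 h3 h4 h5 h6
  nofrs i b r q t u hx hy := by
    refine w.nofrs i (actI a s b) (if s then !r else r) q t u (fun k => ?_) fun k => ?_
    · have h1 := hx k
      unfold trH at h1 ⊢
      rw [← map_map]
      exact h1
    · have h1 := hy k
      unfold trH at h1 ⊢
      rw [← map_map]
      exact h1

theorem Hc.ren {c : ℕ} {j : Fin 5} {a : Fin 5} {s : Bool} (h : Hc X c (actI a s j)) :
    Hc (fun l => X (mapL a s l)) c j := by
  obtain ⟨h0, h1, h2, h3, h4⟩ := h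
  have key5 : ∀ u, u ∈ (fun l => X (mapL a s l)) 5 → u ∈ X 5 := by
    intro u hu
    have hu' : u ∈ X (mapL a s 5) := hu
    rwa [map_5] at hu'
  have keyt : ∀ u, u ∈ (fun l => X (mapL a s l)) (EL j.val) → u ∈ X (EL (actI a s j).val) := by
    intro u hu
    have hu' : u ∈ X (mapL a s (EL j.val)) := hu
    rwa [map_t] at hu'
  have keyc : ∀ u, u ∈ (fun l => X (mapL a s l)) (EL (j.val + 2)) →
      u ∈ (fun l => X (mapL a s l)) (EL (j.val + 3)) →
      u ∈ X (EL ((actI a s j).val + 2)) ∧ u ∈ X (EL ((actI a s j).val + 3)) := by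
    intro u hu hu2
    have h2 : u ∈ X (mapL a s (EL (j.val + 2))) := hu
    have h3 : u ∈ X (mapL a s (EL (j.val + 3))) := hu2
    rcases map_c a s j with ⟨e1, e2⟩ | ⟨e1, e2⟩
    · rw [e1] at h2; rw [e2] at h3; exact ⟨h2, h3⟩
    · rw [e1] at h2; rw [e2] at h3; exact ⟨h3, h2⟩
  have hT : OneT X (actI a s j) → OneT (fun l => X (mapL a s l)) j := by
    rintro ⟨τ, h⟩
    exact ⟨τ, fun u hu hu' => h u (keyt u hu) (key5 u hu')⟩
  have hC : OneC X (actI a s j) → OneC (fun l => X (mapL a s l)) j := by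
    rintro ⟨τ, h⟩
    exact ⟨τ, fun u hu hu' => h u (keyc u hu hu').1 (keyc u hu hu').2⟩
  exact ⟨fun hc u hu hu' => h0 hc u (keyt u hu) (key5 u hu'), fun hc => hC (h1 hc),
    fun hc => ⟨hT (h2 hc).1, hC (h2 hc).2⟩,
    fun hc u hu hu' => h3 hc u (keyc u hu hu').1 (keyc u hu hu').2, fun hc => hT (h4 hc)⟩

/-- the contacts `t_j` -/
def pT (j : Fin 5) (a b : Fin 6) : Prop := (a = EL j.val ∧ b = 5) ∨ (a = 5 ∧ b = EL j.val)

/-- the contacts `c_j` -/
def pC (j : Fin 5) (a b : Fin 6) : Prop :=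
  (a = EL (j.val + 2) ∧ b = EL (j.val + 3)) ∨ (a = EL (j.val + 3) ∧ b = EL (j.val + 2))

instance (j : Fin 5) (a b : Fin 6) : Decidable (pT j a b) := by unfold pT; infer_instance

instance (j : Fin 5) (a b : Fin 6) : Decidable (pC j a b) := by unfold pC; infer_instance

/-- the types of the table agree with the kinds -/
def TyOK (P : PT2) (κ : Fin 5 → ℕ) : Prop :=
  (∀ a : Fin 6, P.ty a.val a.val = 6) ∧
  (∀ a b : Fin 6, tgN a.val b.val = true → a = b ∨ ∃ j : Fin 5,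
    (pT j a b ∧ (κ j = 0 ∨ P.ty a.val b.val = 6 ∨
      (P.ty a.val b.val < 6 ∧ (κ j = 2 ∨ κ j = 4)))) ∨
    (pC j a b ∧ (κ j = 3 ∨ P.ty a.val b.val = 6 ∨
      (P.ty a.val b.val < 6 ∧ (κ j = 1 ∨ κ j = 2))))) ∧
  ∀ a b a' b' : Fin 6, P.ty a.val b.val < 6 → P.ty a.val b.val = P.ty a'.val b'.val →
    (a = a' ∧ b = b') ∨ (a = b' ∧ b = a')

instance (P : PT2) (κ : Fin 5 → ℕ) : Decidable (TyOK P κ) := by unfold TyOK; infer_instance

theorem pT_mem {j : Fin 5} {a b : Fin 6} (h : pT j a b) {u : ℝ} (ha : u ∈ X a) (hb : u ∈ X b) :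
    u ∈ X (EL j.val) ∧ u ∈ X 5 := by
  rcases h with ⟨rfl, rfl⟩ | ⟨rfl, rfl⟩
  · exact ⟨ha, hb⟩
  · exact ⟨hb, ha⟩

theorem pC_mem {j : Fin 5} {a b : Fin 6} (h : pC j a b) {u : ℝ} (ha : u ∈ X a) (hb : u ∈ X b) :
    u ∈ X (EL (j.val + 2)) ∧ u ∈ X (EL (j.val + 3)) := by
  rcases h with ⟨rfl, rfl⟩ | ⟨rfl, rfl⟩
  · exact ⟨ha, hb⟩
  · exact ⟨hb, ha⟩

/-- the alternatives at one contact -/
theorem ty_cases (w : Word5s X) {P : PT2} {κ : Fin 5 → ℕ} (hP : TyOK P κ)
    (hc : ∀ j, Hc X (κ j) j) {u : ℝ} {a b : Fin 6} (ha : u ∈ X a) (hb : u ∈ X b) :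
    P.ty a.val b.val = 6 ∨ (P.ty a.val b.val < 6 ∧ ∃ τ : ℝ, ∀ v, v ∈ X a → v ∈ X b →
      ∃ n : ℤ, v = τ + 6 * (n : ℝ)) := by
  obtain ⟨h1, h2, -⟩ := hP
  rcases h2 a b (w.tog u a b ha hb) with rfl | ⟨j, ⟨hp, h3 | h3 | ⟨h3, h4⟩⟩ | ⟨hp, h3 | h3 | ⟨h3, h4⟩⟩⟩
  · exact Or.inl (h1 a)
  · obtain ⟨m1, m2⟩ := pT_mem hp ha hb
    exact absurd m2 ((hc j).1 h3 u m1)
  · exact Or.inl h3
  · right
    refine ⟨h3, ?_⟩
    have hT : OneT X j := by
      rcases h4 with h4 | h4
      · exact ((hc j).2.2.1 h4).1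
      · exact (hc j).2.2.2.2 h4
    obtain ⟨τ, hτ⟩ := hT
    exact ⟨τ, fun v hva hvb => hτ v (pT_mem hp hva hvb).1 (pT_mem hp hva hvb).2⟩
  · obtain ⟨m1, m2⟩ := pC_mem hp ha hb
    exact absurd m2 ((hc j).2.2.2.1 h3 u m1)
  · exact Or.inl h3
  · right
    refine ⟨h3, ?_⟩
    have hC : OneC X j := by
      rcases h4 with h4 | h4
      · exact (hc j).2.1 h4
      · exact ((hc j).2.2.1 h4).2
    obtain ⟨τ, hτ⟩ := hC
    exact ⟨τ, fun v hva hvb => hτ v (pC_mem hp hva hvb).1 (pC_mem hp hva hvb).2⟩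

theorem exists_ty (w : Word5s X) {P : PT2} {κ : Fin 5 → ℕ} (hP : TyOK P κ)
    (hc : ∀ j, Hc X (κ j) j) : ∃ τ : ℕ → ℝ, Ty P X τ := by
  classical
  let Q : ℕ → ℝ → Prop := fun i u => ∃ a b : Fin 6, u ∈ X a ∧ u ∈ X b ∧ P.ty a.val b.val = i
  let τ : ℕ → ℝ := fun i => if h : ∃ u, Q i u then h.choose else 0
  refine ⟨τ, ?_, ?_, hP.1⟩
  · intro u a b ha hb h7
    rcases ty_cases w hP hc ha hb with h | ⟨h, -⟩
    · rw [h] at h7; exact absurd h7 (by decide)
    · rw [h7] at h; exact absurd h (by decide)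
  · intro u a b ha hb hlt
    have hex : ∃ v, Q (P.ty a.val b.val) v := ⟨u, a, b, ha, hb, rfl⟩
    obtain ⟨c, hτ, a', b', ha', hb', he⟩ : ∃ c, τ (P.ty a.val b.val) = c ∧
        Q (P.ty a.val b.val) c := ⟨hex.choose, dif_pos hex, hex.choose_spec⟩
    rw [hτ]
    rcases ty_cases w hP hc ha hb with h | ⟨-, ρ, hρ⟩
    · rw [h] at hlt; exact absurd hlt (by decide)
    · have hm : c ∈ X a ∧ c ∈ X b := by
        rcases hP.2.2 a b a' b' hlt he.symm with ⟨e1, e2⟩ | ⟨e1, e2⟩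
        · rw [e1, e2]; exact ⟨ha', hb'⟩
        · rw [e1, e2]; exact ⟨hb', ha'⟩
      obtain ⟨n, hn⟩ := hρ u ha hb
      obtain ⟨m, hm'⟩ := hρ _ hm.1 hm.2
      refine ⟨n - m, ?_⟩
      push_cast
      linarith

/-- **One pattern** -/
theorem Word5s.kill (w : Word5s X) {P : PT2} {κ : Fin 5 → ℕ} (h1 : P.chk1 = true)
    (h2 : P.chk2 = true) (hP : TyOK P κ) (hc : ∀ j, Hc X (κ j) j) : False := by
  obtain ⟨τ, t⟩ := exists_ty w hP hc
  exact w.false_of_good (good2_of h1 h2) t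

/-- the three kinds of the counting rule -/
def k3 : Fin 3 → ℕ := ![0, 3, 2]

/-- the test that the patterns `L` cover everything -/
def covT (L : List (Fin 5 → ℕ)) : Prop :=
  ∀ p0 p1 p2 p3 p4 : Fin 3, (L.any fun P => (List.finRange 5).any fun a => [false, true].any fun s =>
    (List.finRange 5).all fun j => leC (k3 (![p0, p1, p2, p3, p4] (actI a s j))) (P j)) = true

instance (L : List (Fin 5 → ℕ)) : Decidable (covT L) := by unfold covT; infer_instance

/-- **Reduction.** -/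
theorem Word5s.false_of {L : List (Fin 5 → ℕ)} (hL : covT L)
    (kill : ∀ P ∈ L, ∀ Y : Fin 6 → Set ℝ, Word5s Y → (∀ j, Hc Y (P j) j) → False)
    (w : Word5s X) (hcnt : ∀ j : Fin 5, NoT X j ∨ NoC X j ∨ (OneT X j ∧ OneC X j)) : False := by
  have h1 : ∀ j : Fin 5, ∃ p : Fin 3, Hc X (k3 p) j := by
    intro j
    rcases hcnt j with h | h | h
    · exact ⟨0, fun _ => h, fun h => absurd h (by decide), fun h => absurd h (by decide),
        fun h => absurd h (by decide), fun h => absurd h (by decide)⟩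
    · exact ⟨1, fun h => absurd h (by decide), fun h => absurd h (by decide),
        fun h => absurd h (by decide), fun _ => h, fun h => absurd h (by decide)⟩
    · exact ⟨2, fun h => absurd h (by decide), fun h => absurd h (by decide), fun _ => h,
        fun h => absurd h (by decide), fun h => absurd h (by decide)⟩
  choose p hp using h1
  have hpe : ∀ j, ![p 0, p 1, p 2, p 3, p 4] j = p j := by
    intro j; fin_cases j <;> rfl
  have h2 := hL (p 0) (p 1) (p 2) (p 3) (p 4)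
  obtain ⟨P, hP, h3⟩ := List.any_eq_true.1 h2
  obtain ⟨a, -, h4⟩ := List.any_eq_true.1 h3
  obtain ⟨s, -, h5⟩ := List.any_eq_true.1 h4
  refine kill P hP _ (w.ren a s) fun j => ?_
  have h6 := List.all_eq_true.1 h5 j (List.mem_finRange j)
  rw [hpe] at h6
  exact Hc.ren ((hp _).mono h6)

/-- kinds A B C D E F = 0 1 2 3 4 5 -/
theorem cov_six : covT [![2, 5, 3, 5, 5], ![0, 0, 5, 1, 5], ![0, 4, 0, 4, 4], ![3, 3, 5, 3, 5],
    ![1, 1, 5, 2, 5], ![0, 0, 3, 5, 3]] := by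
  decide +kernel

end Vale.Agent.P032.Words.Pent
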