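import Vale.Agent.P032.Words5.H819.Fin5
import Vale.Agent.P032.Words5.H819.QCFDFF
import Vale.Agent.P032.Words5.H819.QAAFBF
import Vale.Agent.P032.Words5.H819.QAEAEE
import Vale.Agent.P032.Words5.H819.QDDFDF
import Vale.Agent.P032.Words5.H819.QBBFCF
import Vale.Agent.P032.Words5.H819.QAADFD

/-!
# Pentagon words: there is no word of a clean five coloured centre
-/

namespace Vale.Agent.P032.Words.Pent

open Set Filter Topology

variable {X : Fin 6 → Set ℝ}

/-- **There is no word** of a clean five coloured centre. -/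
theorem Word5s.false (w : Word5s X)
    (hcnt : ∀ j : Fin 5, NoT X j ∨ NoC X j ∨ (OneT X j ∧ OneC X j)) : False := by
  refine Word5s.false_of cov_six ?_ w hcnt
  intro P hP Y wY hc
  simp only [List.mem_cons, List.not_mem_nil, or_false] at hP
  rcases hP with rfl | rfl | rfl | rfl | rfl | rfl
  · exact wY.kill q1CFDFF q2CFDFF (by decide +kernel) hc
  · exact wY.kill q1AAFBF q2AAFBF (by decide +kernel) hc
  · exact wY.kill q1AEAEE q2AEAEE (by decide +kernel) hc
  · exact wY.kill q1DDFDF q2DDFDF (by decide +kernel) hc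
  · exact wY.kill q1BBFCF q2BBFCF (by decide +kernel) hc
  · exact wY.kill q1AADFD q2AADFD (by decide +kernel) hc

/-- the same from the landed structure `Word5`, the cover and the rule on frozen events -/
theorem Word5.false_of (w : Word5 X) (hc : ∀ u, ∃ l, u ∈ X l)
    (hn : ∀ (i : Fin 3) (a : Fin 5) (s : Bool) (q : Fin 6) (t : Bool) (u : ℝ),
      (∀ k : Fin 6, u + (k.val : ℝ) ∈ X (trH a s q t (fx i) k)) →
      (∀ k : Fin 6, u + (k.val : ℝ) ∈ X (trH a s q t (fy i) k)) → False) : False := by
  refine (w.strong hc hn).false fun j => ?_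
  rcases w.cnt j with h | h | ⟨s, t, h1, h2⟩
  · exact Or.inl h
  · exact Or.inr (Or.inl h)
  · exact Or.inr (Or.inr ⟨⟨s, h1⟩, ⟨t, h2⟩⟩)

end Vale.Agent.P032.Words.Pent
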