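import Vale.Agent.P032.Words5.H819.Pairs

/-!
# Pentagon words: soundness of the check of pairs
-/

namespace Vale.Agent.P032.Words.Pent

open Set Filter Topology

/-- a pair of hexagons in the palettes of one angle -/
structure PairH (h h' : Hx6) : Prop where
  leg : LegP h
  leg' : LegP h'
  tg : ∀ k, tgN (h k).val (h' k).val = true
  s1 : ∀ k, adjN (h k).val (h' (k + 1)).val = true ∨ adjN (h' k).val (h (k + 1)).val = true
  s3 : ∀ k, oppN (h k).val (h' (k + 3)).val = true ∨ oppN (h' k).val (h (k + 3)).val = true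

/-- the state of a pair at a position -/
def stP (h h' : Hx6) (k : Fin 6) : ℕ := 6 * (h k).val + (h' k).val

theorem stP_lt (h h' : Hx6) (k : Fin 6) : stP h h' k < 36 := by
  have h1 := (h k).isLt
  have h2 := (h' k).isLt
  unfold stP
  omega

theorem stP_div (h h' : Hx6) (k : Fin 6) : stP h h' k / 6 = (h k).val := by
  have h1 := (h k).isLt
  have h2 := (h' k).isLt
  unfold stP
  omega

theorem stP_mod (h h' : Hx6) (k : Fin 6) : stP h h' k % 6 = (h' k).val := by
  have h1 := (h k).isLt
  have h2 := (h' k).isLt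
  unfold stP
  omega

theorem stP_mem {h h' : Hx6} (p : PairH h h') (k : Fin 6) : stP h h' k ∈ SL := by
  have a := all_range (all_range sl_spec (h k).isLt) (h' k).isLt
  rw [p.tg k, Bool.not_true, Bool.false_or] at a
  exact List.contains_iff_mem.1 a

theorem stP_1 {h h' : Hx6} (p : PairH h h') (k : Fin 6) :
    NS1.testBit (36 * stP h h' k + stP h h' (k + 1)) = true := by
  have a := all_range (all_range ns1_spec (stP_lt h h' k)) (stP_lt h h' (k + 1))
  rw [beq_iff_eq] at a
  rw [a, stP_div, stP_mod, stP_div, stP_mod, p.leg.1 k, p.leg'.1 k]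
  rcases p.s1 k with h1 | h1
  · rw [h1]; rfl
  · rw [h1, Bool.or_true]; rfl

theorem stP_3 {h h' : Hx6} (p : PairH h h') (k : Fin 6) :
    NS3.testBit (36 * stP h h' k + stP h h' (k + 3)) = true := by
  have a := all_range (all_range ns3_spec (stP_lt h h' k)) (stP_lt h h' (k + 3))
  rw [beq_iff_eq] at a
  rw [a, stP_div, stP_mod, stP_div, stP_mod, p.leg.2 k, p.leg'.2 k]
  rcases p.s3 k with h1 | h1
  · rw [h1]; rfl
  · rw [h1, Bool.or_true]; rfl

theorem leaf_of {h h' : Hx6} (p : PairH h h') (hp : pairsAt (stP h h' 0) = true) :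
    leafN (code h) (code h') = true := by
  have n01 : NS1.testBit (36 * stP h h' 0 + stP h h' 1) = true := stP_1 p 0
  have n12 : NS1.testBit (36 * stP h h' 1 + stP h h' 2) = true := stP_1 p 1
  have n23 : NS1.testBit (36 * stP h h' 2 + stP h h' 3) = true := stP_1 p 2
  have n34 : NS1.testBit (36 * stP h h' 3 + stP h h' 4) = true := stP_1 p 3
  have n45 : NS1.testBit (36 * stP h h' 4 + stP h h' 5) = true := stP_1 p 4
  have n50 : NS1.testBit (36 * stP h h' 5 + stP h h' 0) = true := stP_1 p 5
  have o03 : NS3.testBit (36 * stP h h' 0 + stP h h' 3) = true := stP_3 p 0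
  have o14 : NS3.testBit (36 * stP h h' 1 + stP h h' 4) = true := stP_3 p 1
  have o25 : NS3.testBit (36 * stP h h' 2 + stP h h' 5) = true := stP_3 p 2
  unfold pairsAt at hp
  have a1 := List.all_eq_true.1 hp _ (stP_mem p 1)
  simp only [n01, Bool.not_true, Bool.false_or] at a1
  have a2 := List.all_eq_true.1 a1 _ (stP_mem p 2)
  simp only [n12, Bool.not_true, Bool.false_or] at a2
  have a3 := List.all_eq_true.1 a2 _ (stP_mem p 3)
  simp only [n23, o03, Bool.and_self, Bool.not_true, Bool.false_or] at a3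
  have a4 := List.all_eq_true.1 a3 _ (stP_mem p 4)
  simp only [n34, o14, Bool.and_self, Bool.not_true, Bool.false_or] at a4
  have a5 := List.all_eq_true.1 a4 _ (stP_mem p 5)
  simp only [n45, n50, o25, Bool.and_self, Bool.not_true, Bool.false_or, force_eq, stP_div,
    stP_mod] at a5
  exact a5

theorem LegP_of {h : Hx6} (hb : LEGB.testBit (code h) = true) : LegP h := by
  have hlt := code_lt h
  have e : 216 * (code h / 216) + code h % 216 = code h := by omega
  have a := all_range (all_range leg_all (i := code h / 216) (by omega)) (i := code h % 216)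
    (by omega)
  rw [force_eq, e, hb, Bool.not_true, Bool.false_or] at a
  have d : ∀ k : Fin 6, dg (code h) k.val = (h k).val := dg_code h
  have d0 : dg (code h) 0 = (h 0).val := d 0
  have d1 : dg (code h) 1 = (h 1).val := d 1
  have d2 : dg (code h) 2 = (h 2).val := d 2
  have d3 : dg (code h) 3 = (h 3).val := d 3
  have d4 : dg (code h) 4 = (h 4).val := d 4
  have d5 : dg (code h) 5 = (h 5).val := d 5
  unfold legN at a
  rw [d0, d1, d2, d3, d4, d5] at a
  simp only [Bool.and_eq_true] at a
  obtain ⟨⟨⟨⟨⟨⟨⟨⟨a0, a1⟩, a2⟩, a3⟩, a4⟩, a5⟩, b0⟩, b1⟩, b2⟩ := a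
  have hsym : ∀ a b : Fin 6, oppN a.val b.val = oppN b.val a.val := by decide
  constructor
  · intro k
    fin_cases k
    exacts [a0, a1, a2, a3, a4, a5]
  · intro k
    fin_cases k
    · exact b0
    · exact b1
    · exact b2
    · exact (hsym _ _).trans b0
    · exact (hsym _ _).trans b1
    · exact (hsym _ _).trans b2

theorem code_inj {h h' : Hx6} (hc : code h = code h') : h = h' := by
  funext k
  apply Fin.ext
  rw [← dg_code, ← dg_code, hc]

/-- **Every pair** is equal, reducible, special or frozen -/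
theorem cases_of {h h' : Hx6} (hl : leafN (code h) (code h') = true) :
    h = h' ∨ (∃ k, h k ≠ h' k ∧ LegP (Function.update h k (h' k))) ∨
      spN (code h) (code h') = true ∨ frN (code h) (code h') = true := by
  unfold leafN at hl
  rw [Bool.or_eq_true, Bool.or_eq_true, Bool.or_eq_true, beq_iff_eq] at hl
  rcases hl with h1 | h1 | h1 | h1
  · exact Or.inl (code_inj h1)
  · obtain ⟨k, hk, h2⟩ := List.any_eq_true.1 h1
    rw [List.mem_range] at hk
    rw [Bool.and_eq_true] at h2
    have d1 : dg (code h) k = (h ⟨k, hk⟩).val := dg_code h ⟨k, hk⟩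
    have d2 : dg (code h') k = (h' ⟨k, hk⟩).val := dg_code h' ⟨k, hk⟩
    refine Or.inr (Or.inl ⟨⟨k, hk⟩, fun h3 => ?_, LegP_of ?_⟩)
    · rw [d1, d2, h3] at h2
      simp at h2
    · have e := code_update h ⟨k, hk⟩ (h' ⟨k, hk⟩)
      rw [e, ← d2]
      exact h2.2
  · exact Or.inr (Or.inr (Or.inl h1))
  · exact Or.inr (Or.inr (Or.inr h1))

/-- the first and second hexagon of the symmetry `w` -/
def frX (w : ℕ) : Hx6 :=
  trH ⟨(w / 3) % 5, Nat.mod_lt _ (by norm_num)⟩ ((w / 15) % 2 == 1)
    ⟨(w / 30) % 6, Nat.mod_lt _ (by norm_num)⟩ ((w / 180) % 2 == 1)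
    (fx ⟨w % 3, Nat.mod_lt _ (by norm_num)⟩)

def frY (w : ℕ) : Hx6 :=
  trH ⟨(w / 3) % 5, Nat.mod_lt _ (by norm_num)⟩ ((w / 15) % 2 == 1)
    ⟨(w / 30) % 6, Nat.mod_lt _ (by norm_num)⟩ ((w / 180) % 2 == 1)
    (fy ⟨w % 3, Nat.mod_lt _ (by norm_num)⟩)

theorem frc_spec : (FRC.all fun x => force (x / 4294967296) fun w =>
    (code (frX w) + 65536 * code (frY w) == x % 4294967296) ||
    (code (frY w) + 65536 * code (frX w) == x % 4294967296)) = true := by
  decide +kernel

/-- a frozen pair is one of the three patterns -/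
theorem fr_of {h h' : Hx6} (hf : frN (code h) (code h') = true) :
    ∃ w, (h = frX w ∧ h' = frY w) ∨ (h' = frX w ∧ h = frY w) := by
  obtain ⟨x, hx, h1⟩ := List.any_eq_true.1 hf
  rw [beq_iff_eq] at h1
  have h2 := List.all_eq_true.1 frc_spec x hx
  rw [force_eq, Bool.or_eq_true, beq_iff_eq, beq_iff_eq, h1] at h2
  have l1 := code_lt h
  have l2 := code_lt h'
  have l3 := code_lt (frX (x / 4294967296))
  have l4 := code_lt (frY (x / 4294967296))
  refine ⟨x / 4294967296, ?_⟩
  rcases h2 with h2 | h2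
  · left
    exact ⟨code_inj (h := h) (h' := frX (x / 4294967296)) (by omega),
      code_inj (h := h') (h' := frY (x / 4294967296)) (by omega)⟩
  · right
    exact ⟨code_inj (h := h') (h' := frX (x / 4294967296)) (by omega),
      code_inj (h := h) (h' := frY (x / 4294967296)) (by omega)⟩

end Vale.Agent.P032.Words.Pent
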