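import Vale.Agent.P032.Words5.H819.Spec
import Vale.Agent.P032.Words5.H819.Word5

/-!
# Pentagon words: pairs of hexagons in the palettes of one angle, the checker
-/

namespace Vale.Agent.P032.Words.Pent

/-- the rank of a code -/
def rk (c : ℕ) : ℕ := (RK >>> (10 * c)) % 1024

/-- the pair is a special pair -/
def spN (c c' : ℕ) : Bool := (SPT.getD (c % 64) []).any fun x => x == c + 65536 * c'

/-- the pair is a frozen pair -/
def frN (c c' : ℕ) : Bool := FRC.any fun x => x % 4294967296 == c + 65536 * c'

/-- some change leads to a legal hexagon -/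
def redN (c c' : ℕ) : Bool :=
  (List.range 6).any fun k => !(dg c k == dg c' k) && LEGB.testBit (upd c k (dg c' k))

def leafN (c c' : ℕ) : Bool := c == c' || (redN c c' || (spN c c' || frN c c'))

/-- all pairs which start with `s0` -/
def pairsAt (s0 : ℕ) : Bool :=
  SL.all fun s1 => !NS1.testBit (36 * s0 + s1) ||
  SL.all fun s2 => !NS1.testBit (36 * s1 + s2) ||
  SL.all fun s3 => !(NS1.testBit (36 * s2 + s3) && NS3.testBit (36 * s0 + s3)) ||
  SL.all fun s4 => !(NS1.testBit (36 * s3 + s4) && NS3.testBit (36 * s1 + s4)) ||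
  SL.all fun s5 => !(NS1.testBit (36 * s4 + s5) && (NS1.testBit (36 * s5 + s0) &&
    NS3.testBit (36 * s2 + s5))) ||
  force (s0 / 6 + 6 * (s1 / 6) + 36 * (s2 / 6) + 216 * (s3 / 6) + 1296 * (s4 / 6) + 7776 * (s5 / 6))
    fun c => force (s0 % 6 + 6 * (s1 % 6) + 36 * (s2 % 6) + 216 * (s3 % 6) + 1296 * (s4 % 6) +
      7776 * (s5 % 6)) fun c' => leafN c c'

theorem ns1_spec : ((List.range 36).all fun s => (List.range 36).all fun t =>
    NS1.testBit (36 * s + t) == (adjN (s / 6) (t / 6) && adjN (s % 6) (t % 6) &&
      (adjN (s / 6) (t % 6) || adjN (s % 6) (t / 6)))) = true := by decide +kernel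

theorem ns3_spec : ((List.range 36).all fun s => (List.range 36).all fun t =>
    NS3.testBit (36 * s + t) == (oppN (s / 6) (t / 6) && oppN (s % 6) (t % 6) &&
      (oppN (s / 6) (t % 6) || oppN (s % 6) (t / 6)))) = true := by decide +kernel

theorem sl_spec : ((List.range 6).all fun a => (List.range 6).all fun b =>
    !tgN a b || SL.contains (6 * a + b)) = true := by decide +kernel

theorem leg_all : ((List.range 216).all fun a => (List.range 216).all fun b =>
    force (216 * a + b) fun c => !LEGB.testBit c || legN c) = true := by decide +kernel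

end Vale.Agent.P032.Words.Pent
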