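import Vale.Agent.P032.Words.TEngine

/-!
# Words on a circle: the path lemma for any number of marks

A word with exact contacts (`TW`) whose non-free contacts are `n` marks (modulo the period).  Then the
value of `cmp` passes, during one step of length one, from `cmp h₀` to `cmp (rot h₀)` through single
marks, every mark used at most once.
-/

namespace Vale.Agent.P032.Words

open Set Filter Topology

/-- One mark is passed. -/
inductive MStep {Λ : Type} (Leg : (Fin 6 → Λ) → Prop) (cmp : (Fin 6 → Λ) → ℕ) {n : ℕ}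
    (a b : Fin n → Λ) : ℕ × Finset (Fin n) → ℕ × Finset (Fin n) → Prop
  | mk (i : Fin n) (S : Finset (Fin n)) (hi : i ∉ S) (h : Fin 6 → Λ) (k : Fin 6) (h1 : Leg h)
      (h2 : h k = a i) (h3 : Leg (Function.update h k (b i))) :
      MStep Leg cmp a b (cmp h, S) (cmp (Function.update h k (b i)), insert i S)

/-- Several marks are passed, every one at most once. -/
def MReach {Λ : Type} (Leg : (Fin 6 → Λ) → Prop) (cmp : (Fin 6 → Λ) → ℕ) {n : ℕ}
    (a b : Fin n → Λ) : ℕ × Finset (Fin n) → ℕ × Finset (Fin n) → Prop :=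
  Relation.ReflTransGen (MStep Leg cmp a b)

variable {Λ : Type} {X : Λ → Set ℝ} {Leg : (Fin 6 → Λ) → Prop} {Mk : Λ → Λ → Prop} {lam : ℝ → Λ}
  {free : Λ → Λ → Prop} {cmp : (Fin 6 → Λ) → ℕ}

theorem per_int (hper : ∀ l u, u + 6 ∈ X l ↔ u ∈ X l) (l : Λ) (u : ℝ) (m : ℤ) :
    u + 6 * (m : ℝ) ∈ X l ↔ u ∈ X l := by
  have hnat : ∀ (j : ℕ) (v : ℝ), v + 6 * (j : ℝ) ∈ X l ↔ v ∈ X l := by
    intro j
    induction j with
    | zero => intro v; simp
    | succ j ih =>
      intro v
      have e : v + 6 * ((j + 1 : ℕ) : ℝ) = (v + 6 * (j : ℝ)) + 6 := by push_cast; ring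
      rw [e, hper, ih]
  obtain ⟨j, rfl | rfl⟩ := m.eq_nat_or_neg
  · have := hnat j u
    simpa using this
  · have := hnat j (u + 6 * ((-(j : ℤ) : ℤ) : ℝ))
    rw [← this]
    have e : u + 6 * ((-(j : ℤ) : ℤ) : ℝ) + 6 * (j : ℝ) = u := by push_cast; ring
    rw [e]

theorem Mark.shift {a b : Λ} {V : ℝ} (hV : Mark X a b V)
    (hper : ∀ l u, u + 6 ∈ X l ↔ u ∈ X l) (m : ℤ) : Mark X a b (V + 6 * (m : ℝ)) where
  mem_a := (per_int hper a V m).2 hV.mem_a
  mem_b := (per_int hper b V m).2 hV.mem_b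
  only := fun l hl => hV.only l ((per_int hper l V m).1 hl)
  left := by
    have h1 := tendsto_add_left (V + 6 * (m : ℝ)) (-(6 * (m : ℝ)))
    have e : V + 6 * (m : ℝ) + -(6 * (m : ℝ)) = V := by ring
    rw [e] at h1
    filter_upwards [h1.eventually hV.left] with v hv hvb
    apply hv
    have e2 : v + -(6 * (m : ℝ)) = v + 6 * ((-m : ℤ) : ℝ) := by push_cast; ring
    rw [e2, per_int hper]
    exact hvb
  right := by
    have h1 := tendsto_add_right (V + 6 * (m : ℝ)) (-(6 * (m : ℝ)))
    have e : V + 6 * (m : ℝ) + -(6 * (m : ℝ)) = V := by ring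
    rw [e] at h1
    filter_upwards [h1.eventually hV.right] with v hv hva
    apply hv
    have e2 : v + -(6 * (m : ℝ)) = v + 6 * ((-m : ℤ) : ℝ) := by push_cast; ring
    rw [e2, per_int hper]
    exact hva

theorem fract_of_pos {u v : ℝ} (h0 : 0 ≤ u) (h1 : u < 1) {k : Fin 6} {m : ℤ}
    (h : u + (k.val : ℝ) = v + 6 * (m : ℝ)) : Int.fract v = u := by
  rw [Int.fract_eq_iff]
  refine ⟨h0, h1, (k.val : ℤ) - 6 * m, ?_⟩
  push_cast
  linarith

/-- The marks at one time. -/
theorem TW.pass [Finite Λ] (w : TW X Leg Mk lam)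
    (hstep : ∀ h k l, Leg h → Leg (Function.update h k l) → free (h k) l →
      cmp (Function.update h k l) = cmp h)
    (hrefl : ∀ x, free x x) {n : ℕ} {V : Fin n → ℝ} {a b : Fin n → Λ}
    (hM : ∀ i, Mark X (a i) (b i) (V i)) (hMk : ∀ i, Mk (a i) (b i))
    (hN : ∀ u x y, u ∈ X x → u ∈ X y → ¬ free x y → ∃ i, ∃ m : ℤ, u = V i + 6 * (m : ℝ))
    {u : ℝ} (h0 : 0 ≤ u) (h1 : u < 1) {S : Finset (Fin n)} (hS : ∀ i ∈ S, Int.fract (V i) ≠ u) :
    ∃ (h₀ : Fin 6 → Λ) (c : ℕ) (S' : Finset (Fin n)), Leg h₀ ∧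
      (∀ᶠ v in 𝓝[<] u, cmp (sT lam v) = cmp h₀) ∧
      (∀ᶠ v in 𝓝[>] u, cmp (sT lam v) = c) ∧
      (∀ᶠ v in 𝓝[<] (u + 1), cmp (sT lam v) = cmp (rot h₀)) ∧
      (∀ i ∈ S', i ∈ S ∨ Int.fract (V i) = u) ∧
      MReach Leg cmp a b (cmp h₀, S) (c, S') := by
  classical
  let Q : Fin 6 → Fin n → Prop := fun k i => ∃ m : ℤ, u + (k.val : ℝ) = V i + 6 * (m : ℝ)
  let M : Finset (Fin 6) := Finset.univ.filter fun k => ∃ i, Q k i
  have hMm : ∀ k, k ∈ M ↔ ∃ i, Q k i := fun k => by simp [M]
  -- the index of the mark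
  by_cases hn : Nonempty (Fin n)
  swap
  · -- no marks at all
    have hfree : ∀ k : Fin 6, k ∉ (∅ : Finset (Fin 6)) → ∀ x y, u + (k.val : ℝ) ∈ X x →
        u + (k.val : ℝ) ∈ X y → free x y := by
      intro k _ x y hx hy
      by_contra hcon
      obtain ⟨i, -⟩ := hN _ x y hx hy hcon
      exact hn ⟨i⟩
    obtain ⟨h, hl, -, hL, hR, hE⟩ := w.jump hstep hrefl (u := u) (∅ : Finset (Fin 6))
      (fun _ => lam 0) (fun _ => lam 0) (fun k hk => absurd hk (Finset.notMem_empty k))
      (fun k hk => absurd hk (Finset.notMem_empty k)) hfree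
    exact ⟨h ∅, cmp (h ∅), S, hl ∅, hL, hR, hE, fun i hi => Or.inl hi, Relation.ReflTransGen.refl⟩
  · obtain ⟨i₀⟩ := hn
    let idx : Fin 6 → Fin n := fun k => if hk : ∃ i, Q k i then hk.choose else i₀
    have hidx : ∀ k ∈ M, Q k (idx k) := by
      intro k hk
      have hk' := (hMm k).1 hk
      simp only [idx, dif_pos hk']
      exact hk'.choose_spec
    have hfr : ∀ k ∈ M, Int.fract (V (idx k)) = u := by
      intro k hk
      obtain ⟨m, hm⟩ := hidx k hk
      exact fract_of_pos h0 h1 hm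
    have hinj : ∀ k ∈ M, ∀ k' ∈ M, idx k = idx k' → k = k' := by
      intro k hk k' hk' he
      obtain ⟨m, hm⟩ := hidx k hk
      obtain ⟨m', hm'⟩ := hidx k' hk'
      rw [he] at hm
      have h3 : (k.val : ℝ) - (k'.val : ℝ) = 6 * ((m - m' : ℤ) : ℝ) := by push_cast; linarith
      have h4 : ((k.val : ℤ) - (k'.val : ℤ)) = 6 * (m - m') := by
        have : (((k.val : ℤ) - (k'.val : ℤ) : ℤ) : ℝ) = ((6 * (m - m') : ℤ) : ℝ) := by
          push_cast at h3 ⊢; linarith
        exact_mod_cast this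
      have h5 := k.isLt
      have h6 := k'.isLt
      apply Fin.ext
      omega
    obtain ⟨h, hl, hch, hL, hR, hE⟩ := w.jump hstep hrefl (u := u) M (fun k => a (idx k))
      (fun k => b (idx k)) (fun k hk => by
        obtain ⟨m, hm⟩ := hidx k hk
        rw [hm]
        exact (hM (idx k)).shift w.per m) (fun k _ => hMk (idx k)) (fun k hk x y hx hy => by
        by_contra hcon
        obtain ⟨i, m, hi⟩ := hN _ x y hx hy hcon
        exact hk ((hMm k).2 ⟨i, m, hi⟩))
    have key : ∀ K : Finset (Fin 6), K ⊆ M →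
        MReach Leg cmp a b (cmp (h ∅), S) (cmp (h K), S ∪ K.image idx) := by
      intro K
      induction K using Finset.induction_on with
      | empty =>
        intro _
        simp only [Finset.image_empty, Finset.union_empty]
        exact Relation.ReflTransGen.refl
      | insert k K hk ih =>
        intro hKM
        have hkM : k ∈ M := hKM (Finset.mem_insert_self k K)
        have hKM' : K ⊆ M := fun j hj => hKM (Finset.mem_insert_of_mem hj)
        obtain ⟨e1, e2⟩ := hch K k hkM hk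
        have hnot : idx k ∉ S ∪ K.image idx := by
          rw [Finset.mem_union, Finset.mem_image]
          rintro (h3 | ⟨j, hj, hje⟩)
          · exact hS _ h3 (hfr k hkM)
          · have := hinj j (hKM' hj) k hkM hje
            subst this
            exact hk hj
        have hst := MStep.mk (Leg := Leg) (cmp := cmp) (a := a) (b := b) (idx k)
          (S ∪ K.image idx) hnot (h K) k (hl K) e1 (by rw [← e2]; exact hl _)
        have e3 : insert (idx k) (S ∪ K.image idx) = S ∪ (insert k K).image idx := by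
          rw [Finset.image_insert, Finset.union_insert]
        rw [e3, ← e2] at hst
        exact Relation.ReflTransGen.tail (ih hKM') hst
    refine ⟨h ∅, cmp (h M), S ∪ M.image idx, hl ∅, hL, hR, hE, ?_, key M (Finset.Subset.refl M)⟩
    intro i hi
    rcases Finset.mem_union.1 hi with h3 | h3
    · exact Or.inl h3
    · obtain ⟨k, hk, rfl⟩ := Finset.mem_image.1 h3
      exact Or.inr (hfr k hk)

/-- **Path lemma**: any number of marks. -/
theorem TW.path [Finite Λ] (w : TW X Leg Mk lam)
    (hstep : ∀ h k l, Leg h → Leg (Function.update h k l) → free (h k) l →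
      cmp (Function.update h k l) = cmp h)
    (hrefl : ∀ x, free x x) {n : ℕ} (V : Fin n → ℝ) (a b : Fin n → Λ)
    (hM : ∀ i, Mark X (a i) (b i) (V i)) (hMk : ∀ i, Mk (a i) (b i))
    (hN : ∀ u x y, u ∈ X x → u ∈ X y → ¬ free x y → ∃ i, ∃ m : ℤ, u = V i + 6 * (m : ℝ)) :
    ∃ (h₀ : Fin 6 → Λ) (S : Finset (Fin n)), Leg h₀ ∧
      MReach Leg cmp a b (cmp h₀, ∅) (cmp (rot h₀), S) := by
  classical
  obtain ⟨h₀, -, -, hl₀, hL₀, -, hE₀, -, -⟩ := w.pass hstep hrefl hM hMk hN (u := 0) le_rfl
    one_pos (S := ∅) (fun i hi => absurd hi (Finset.notMem_empty i))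
  have key : ∀ N : ℕ, ∀ u : ℝ, 0 ≤ u → u ≤ 1 →
      (Finset.univ.filter fun i => Int.fract (V i) < u).card = N →
      ∃ c S, (∀ᶠ v in 𝓝[<] u, cmp (sT lam v) = c) ∧ (∀ i ∈ S, Int.fract (V i) < u) ∧
        MReach Leg cmp a b (cmp h₀, ∅) (c, S) := by
    intro N
    induction N using Nat.strong_induction_on with
    | _ N ih =>
      intro u hu0 hu1 hN'
      rcases hu0.eq_or_lt with rfl | hupos
      · exact ⟨cmp h₀, ∅, hL₀, fun i hi => absurd hi (Finset.notMem_empty i),
          Relation.ReflTransGen.refl⟩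
      -- the last time of a mark before `u`
      set A : Finset (Fin n) := Finset.univ.filter fun i => Int.fract (V i) < u with hA
      set B : Finset ℝ := insert 0 (A.image fun i => Int.fract (V i)) with hB
      have hBne : B.Nonempty := ⟨0, Finset.mem_insert_self _ _⟩
      set u' := B.max' hBne with hu'
      have hu'B : u' ∈ B := B.max'_mem hBne
      have hle : ∀ x ∈ B, x ≤ u' := fun x hx => B.le_max' x hx
      have h0u' : 0 ≤ u' := hle 0 (Finset.mem_insert_self _ _)
      have hlt : u' < u := by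
        rcases Finset.mem_insert.1 hu'B with h3 | h3
        · rw [h3]; exact hupos
        · obtain ⟨i, hi, hi2⟩ := Finset.mem_image.1 h3
          rw [← hi2]
          rw [hA, Finset.mem_filter] at hi
          exact hi.2
      have hu'1 : u' < 1 := lt_of_lt_of_le hlt hu1
      have hP : ∃ c S, (∀ᶠ v in 𝓝[<] u', cmp (sT lam v) = c) ∧
          (∀ i ∈ S, Int.fract (V i) < u') ∧ MReach Leg cmp a b (cmp h₀, ∅) (c, S) := by
        rcases h0u'.eq_or_lt with h3 | h3
        · rw [← h3]
          exact ⟨cmp h₀, ∅, hL₀, fun i hi => absurd hi (Finset.notMem_empty i),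
            Relation.ReflTransGen.refl⟩
        · refine ih _ ?_ u' h0u' hu'1.le rfl
          rw [← hN']
          apply Finset.card_lt_card
          rw [Finset.ssubset_iff_of_subset]
          · rcases Finset.mem_insert.1 hu'B with h4 | h4
            · exact absurd h4 h3.ne'
            · obtain ⟨i, hi, hi2⟩ := Finset.mem_image.1 h4
              refine ⟨i, hi, ?_⟩
              rw [Finset.mem_filter]
              rintro ⟨-, h5⟩
              have h6 : Int.fract (V i) = u' := hi2
              rw [h6] at h5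
              exact lt_irrefl _ h5
          · intro i hi
            rw [Finset.mem_filter] at hi
            rw [hA, Finset.mem_filter]
            exact ⟨hi.1, hi.2.trans hlt⟩
      obtain ⟨c, S, hc, hS, hR⟩ := hP
      obtain ⟨h, c2, S2, hl, hL, hRt, -, hS2, hR2⟩ := w.pass hstep hrefl hM hMk hN (u := u') h0u'
        hu'1 (S := S) (fun i hi => (hS i hi).ne)
      have hcc : c = cmp h := by
        obtain ⟨v, hv1, hv2⟩ := (hc.and hL).exists
        rw [← hv1, hv2]
      refine ⟨c2, S2, ?_, ?_, ?_⟩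
      · obtain ⟨x, hx1, hx2⟩ := (hRt.and (Ioo_mem_nhdsGT hlt)).exists
        filter_upwards [Ioo_mem_nhdsLT hlt] with v hv
        rw [← hx1]
        refine w.const_Ioo hstep isPreconnected_Ioo ?_ hv hx2
        intro y hy k p q hp hq
        by_contra hcon
        obtain ⟨i, m, hi⟩ := hN _ p q hp hq hcon
        have h5 : Int.fract (V i) = y :=
          fract_of_pos (h0u'.trans hy.1.le) (lt_of_lt_of_le hy.2 hu1) hi
        have h6 : Int.fract (V i) ≤ u' := by
          apply hle
          rw [hB]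
          refine Finset.mem_insert_of_mem (Finset.mem_image.2 ⟨i, ?_, rfl⟩)
          rw [hA, Finset.mem_filter]
          refine ⟨Finset.mem_univ i, ?_⟩
          rw [h5]; exact hy.2
        rw [h5] at h6
        exact absurd hy.1 (not_lt.2 h6)
      · intro i hi
        rcases hS2 i hi with h3 | h3
        · exact (hS i h3).trans hlt
        · rw [h3]; exact hlt
      · rw [← hcc] at hR2
        exact hR.trans hR2
  obtain ⟨c, S, hc, -, hR⟩ := key _ 1 zero_le_one le_rfl rfl
  have e01 : (0 : ℝ) + 1 = 1 := by ring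
  rw [e01] at hE₀
  have hcc : c = cmp (rot h₀) := by
    obtain ⟨v, hv1, hv2⟩ := (hc.and hE₀).exists
    rw [← hv1, hv2]
  exact ⟨h₀, S, hl₀, hcc ▸ hR⟩

end Vale.Agent.P032.Words
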