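import Vale.Agent.P032.Words5.H819.Pairs

/-!
# Pentagon words: pairs of hexagons, first letter 0
-/

namespace Vale.Agent.P032.Words.Pent

theorem pa0 : pairsAt 0 = true := by decide +kernel

theorem pa1 : pairsAt 1 = true := by decide +kernel

theorem pa4 : pairsAt 4 = true := by decide +kernel

theorem pa5 : pairsAt 5 = true := by decide +kernel

end Vale.Agent.P032.Words.Pent
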