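import Vale.Agent.P032.Words5.H819.Event

/-!
# Pentagon words: one step around the circle
-/

namespace Vale.Agent.P032.Words.Pent

open Set Filter Topology

variable {X : Fin 6 → Set ℝ}

/-- no marked contact at the angle `u` (all six positions) -/
def Free (P : PT2) (X : Fin 6 → Set ℝ) (u : ℝ) : Prop :=
  ∀ (k : Fin 6) (a b : Fin 6), u + (k.val : ℝ) ∈ X a → u + (k.val : ℝ) ∈ X b →
    ¬ P.ty a.val b.val < 6

/-- **The changes at a free angle** keep every reachability statement -/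
theorem Word5s.free_event (w : Word5s X) {P : PT2} (G : Good2 P) {τ : ℕ → ℝ} (t : Ty P X τ)
    {u : ℝ} (hu : Free P X u) {c0 : ℕ} (hc0 : c0 < P.n) {h h' : Hx6} (a : Hp X u h)
    (b : Hp X u h') {T : ℕ} (hT : T < 2 ^ P.m) (hD : P.bit T (P.lab (code h)) c0 = true) :
    ∃ T' < 2 ^ P.m, (∀ i, T'.testBit i = true → T.testBit i = true) ∧
      P.bit T' (P.lab (code h')) c0 = true := by
  have hno : ∀ k, ¬ P.ty (h k).val (h' k).val < 6 := fun k => hu k _ _ (a.2 k) (b.2 k)
  obtain ⟨T', hT', hA, hD'⟩ := w.event G t hc0 _ h h' a b rfl T hT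
    (fun k hk => absurd hk (hno k)) hD
  refine ⟨T', hT', fun i hi => ?_, hD'⟩
  rcases hA i hi with h1 | ⟨k, h1, h2⟩
  · exact h1
  · exact absurd (h1 ▸ h2) (hno k)

/-- the statement at the angle `v`: from the label `c0` some mask inside `A` -/
def RS (P : PT2) (c0 : ℕ) (A : Set ℕ) (h : Hx6) : Prop :=
  ∃ T < 2 ^ P.m, (∀ i, T.testBit i = true → i ∈ A) ∧ P.bit T (P.lab (code h)) c0 = true

theorem Word5s.free_rs (w : Word5s X) {P : PT2} (G : Good2 P) {τ : ℕ → ℝ} (t : Ty P X τ)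
    {u : ℝ} (hu : Free P X u) {c0 : ℕ} (hc0 : c0 < P.n) {h h' : Hx6} (a : Hp X u h)
    (b : Hp X u h') {A : Set ℕ} (hD : RS P c0 A h) : RS P c0 A h' := by
  obtain ⟨T, hT, hA, hb⟩ := hD
  obtain ⟨T', hT', hA', hb'⟩ := w.free_event G t hu hc0 a b hT hb
  exact ⟨T', hT', fun i hi => hA i (hA' i hi), hb'⟩

/-- **Free intervals** -/
theorem Word5s.free_int (w : Word5s X) {P : PT2} (G : Good2 P) {τ : ℕ → ℝ} (t : Ty P X τ)
    {I : Set ℝ} (hI : IsPreconnected I) (hfree : ∀ u ∈ I, Free P X u) {c0 : ℕ} (hc0 : c0 < P.n)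
    {A : Set ℕ} {v v' : ℝ} (hv : v ∈ I) (hv' : v' ∈ I) {h h' : Hx6} (hh : Hat X v h)
    (hh' : Hat X v' h') (hD : RS P c0 A h) : RS P c0 A h' := by
  classical
  -- angles near which every hexagon has the statement
  set S1 : Set ℝ := {u | ∀ᶠ s in 𝓝 u, ∀ g, Hat X s g → RS P c0 A g} with hS1
  set S2 : Set ℝ := {u | ∀ᶠ s in 𝓝 u, ∀ g, Hat X s g → ¬ RS P c0 A g} with hS2
  have o1 : IsOpen S1 := isOpen_iff_mem_nhds.2 fun u hu => eventually_eventually_nhds.2 hu
  have o2 : IsOpen S2 := isOpen_iff_mem_nhds.2 fun u hu => eventually_eventually_nhds.2 hu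
  have hcov : I ⊆ S1 ∪ S2 := by
    intro u hu
    by_cases hex : ∃ g, Hp X u g ∧ RS P c0 A g
    · obtain ⟨g, hg, hgD⟩ := hex
      left
      filter_upwards [w.near u] with s hs g' hg'
      exact w.free_rs G t (hfree u hu) hc0 hg (hs g' hg') hgD
    · right
      push Not at hex
      filter_upwards [w.near u] with s hs g' hg'
      exact hex g' (hs g' hg')
  have hdisj : ∀ u, u ∈ S1 → u ∈ S2 → False := by
    intro u h1 h2
    have h3 : ∀ᶠ s in 𝓝 u, ∀ g, Hat X s g → False := by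
      filter_upwards [h1, h2] with s a b g hg
      exact b g hg (a g hg)
    obtain ⟨O, hO, hOo, huO⟩ := mem_nhds_iff.1 h3
    obtain ⟨s, hs1, g, hg⟩ := w.dense_hat.inter_open_nonempty O hOo ⟨u, huO⟩
    exact hO hs1 g hg
  have hvS : v ∈ S1 := by
    rcases hcov hv with h1 | h1
    · exact h1
    · exact absurd hD (h1.self_of_nhds h hh)
  have hsub : I ⊆ S1 := by
    refine hI.subset_left_of_subset_union o1 o2 ?_ hcov ⟨v, hv, hvS⟩
    rw [Set.disjoint_left]
    exact fun u h1 h2 => hdisj u h1 h2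
  exact (hsub hv').self_of_nhds h' hh'

/-- the representative of `x` in `[v₀, v₀ + 1)` -/
noncomputable def rep (v₀ x : ℝ) : ℝ := v₀ + Int.fract (x - v₀)

theorem rep_eq {v₀ u x : ℝ} (h0 : v₀ ≤ u) (h1 : u < v₀ + 1) {k : Fin 6} {n : ℤ}
    (h : u + (k.val : ℝ) = x + 6 * (n : ℝ)) : rep v₀ x = u := by
  have e : Int.fract (x - v₀) = u - v₀ := by
    rw [Int.fract_eq_iff]
    refine ⟨by linarith, by linarith, (k.val : ℤ) - 6 * n, ?_⟩
    push_cast
    linarith
  unfold rep
  rw [e]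
  ring

theorem rep_ge (v₀ x : ℝ) : v₀ ≤ rep v₀ x := by
  have := Int.fract_nonneg (x - v₀)
  unfold rep
  linarith

theorem Hat.free {P : PT2} {τ : ℕ → ℝ} (t : Ty P X τ) {v : ℝ} {h : Hx6} (hv : Hat X v h) :
    Free P X v := by
  intro k a b ha hb hlt
  rw [(hv k a).1 ha, (hv k b).1 hb, t.refl] at hlt
  exact absurd hlt (by norm_num)

theorem Word5s.hp_of (w : Word5s X) {v : ℝ} {h : Hx6} (hv : Hat X v h) : Hp X v h :=
  ⟨w.leg_of hv, fun k => (hv k _).2 rfl⟩

theorem Word5s.hat_rot (w : Word5s X) {v : ℝ} {h : Hx6} (hv : Hat X v h) :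
    Hat X (v + 1) (rot h) := by
  intro k m
  have e : v + 1 + (k.val : ℝ) = v + (k.val : ℝ) + 1 := by ring
  rw [e, pos1 w.per]
  exact hv (k + 1) m

/-- a right neighbourhood contains an angle with a hexagon -/
theorem Word5s.exists_right (w : Word5s X) {u u' : ℝ} (h : u < u') {p : ℝ → Prop}
    (hp : ∀ᶠ v in 𝓝 u, p v) : ∃ v g, u < v ∧ v < u' ∧ p v ∧ Hat X v g := by
  obtain ⟨O, hO, hOo, huO⟩ := mem_nhds_iff.1 hp
  have h1 : (O ∩ Ioo u u').Nonempty := by
    have h0 : ∀ᶠ v in 𝓝[>] u, v ∈ O := mem_nhdsWithin_of_mem_nhds (hOo.mem_nhds huO)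
    have h2 : ∀ᶠ v in 𝓝[>] u, v ∈ O ∧ v ∈ Ioo u u' := h0.and (Ioo_mem_nhdsGT h)
    obtain ⟨v, hv⟩ := h2.exists
    exact ⟨v, hv⟩
  obtain ⟨v, hv, g, hg⟩ := w.dense_hat.inter_open_nonempty _ (hOo.inter isOpen_Ioo) h1
  exact ⟨v, g, hv.2.1, hv.2.2, hO hv.1, hg⟩

theorem Word5s.exists_left (w : Word5s X) {u' u : ℝ} (h : u' < u) {p : ℝ → Prop}
    (hp : ∀ᶠ v in 𝓝 u, p v) : ∃ v g, u' < v ∧ v < u ∧ p v ∧ Hat X v g := by
  obtain ⟨O, hO, hOo, huO⟩ := mem_nhds_iff.1 hp
  have h1 : (O ∩ Ioo u' u).Nonempty := by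
    have h0 : ∀ᶠ v in 𝓝[<] u, v ∈ O := mem_nhdsWithin_of_mem_nhds (hOo.mem_nhds huO)
    have h2 : ∀ᶠ v in 𝓝[<] u, v ∈ O ∧ v ∈ Ioo u' u := h0.and (Ioo_mem_nhdsLT h)
    obtain ⟨v, hv⟩ := h2.exists
    exact ⟨v, hv⟩
  obtain ⟨v, hv, g, hg⟩ := w.dense_hat.inter_open_nonempty _ (hOo.inter isOpen_Ioo) h1
  exact ⟨v, g, hv.2.1, hv.2.2, hO hv.1, hg⟩

/-- **One pattern**: no word -/
theorem Word5s.false_of_good (w : Word5s X) {P : PT2} (G : Good2 P) {τ : ℕ → ℝ}
    (t : Ty P X τ) : False := by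
  classical
  obtain ⟨v₀, h₀, hh₀⟩ : ∃ v₀ h₀, Hat X v₀ h₀ := by
    obtain ⟨v, -, g, hg⟩ := w.dense_hat.inter_open_nonempty univ isOpen_univ ⟨0, mem_univ _⟩
    exact ⟨v, g, hg⟩
  have hl₀ := w.leg_of hh₀
  set c0 := P.lab (code h₀) with hc0d
  have hc0 : c0 < P.n := G.lt h₀ hl₀
  have hstart : ∀ A : Set ℕ, RS P c0 A h₀ := fun A =>
    ⟨0, Nat.two_pow_pos _, fun i hi => by rw [Nat.zero_testBit] at hi; exact absurd hi (by decide),
      G.start h₀ hl₀⟩
  let s : ℕ → ℝ := fun i => rep v₀ (τ i)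
  -- a marked contact in the window
  have hmark : ∀ u, v₀ ≤ u → u < v₀ + 1 → ∀ (k a b : Fin 6), u + (k.val : ℝ) ∈ X a →
      u + (k.val : ℝ) ∈ X b → P.ty a.val b.val < 6 → s (P.ty a.val b.val) = u := by
    intro u hu0 hu1 k a b ha hb hlt
    obtain ⟨n, hn⟩ := t.mark _ _ _ ha hb hlt
    exact rep_eq hu0 hu1 hn
  have key : ∀ N : ℕ, ∀ u : ℝ, v₀ < u → u ≤ v₀ + 1 →
      ((Finset.range 6).filter fun i => s i < u).card = N →
      ∀ v h, v₀ < v → v < u → (∀ i < 6, s i < u → s i < v) → Hat X v h →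
        RS P c0 {i | s i < u} h := by
    intro N
    induction N using Nat.strong_induction_on with
    | _ N ih =>
      intro u hu0 hu1 hN v h hv0 hvu hlast hh
      -- the last time of a mark before `u`
      set A : Finset ℕ := (Finset.range 6).filter fun i => s i < u with hA
      set B : Finset ℝ := insert v₀ (A.image s) with hB
      have hBne : B.Nonempty := ⟨v₀, Finset.mem_insert_self _ _⟩
      set u' := B.max' hBne with hu'
      have hu'B : u' ∈ B := B.max'_mem hBne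
      have hle : ∀ x ∈ B, x ≤ u' := fun x hx => B.le_max' x hx
      have h0u' : v₀ ≤ u' := hle _ (Finset.mem_insert_self _ _)
      have hlt : u' < v := by
        rcases Finset.mem_insert.1 hu'B with h3 | h3
        · rw [h3]; exact hv0
        · obtain ⟨i, hi, hi2⟩ := Finset.mem_image.1 h3
          rw [← hi2]
          rw [hA, Finset.mem_filter, Finset.mem_range] at hi
          exact hlast i hi.1 hi.2
      have hu'u : u' < u := hlt.trans hvu
      have hfree : ∀ x, u' < x → x < u → Free P X x := by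
        intro x hx1 hx2 k a b ha hb h6
        have h7 := hmark x (h0u'.trans hx1.le) (hx2.trans_le hu1) k a b ha hb h6
        have h8 : x ≤ u' := by
          rw [← h7]
          refine hle _ (Finset.mem_insert_of_mem (Finset.mem_image.2 ⟨_, ?_, rfl⟩))
          rw [hA, Finset.mem_filter, Finset.mem_range]
          exact ⟨h6, by rw [h7]; exact hx2⟩
        exact absurd hx1 (not_lt.2 h8)
      rcases h0u'.eq_or_lt with h3 | h3
      · -- no mark before
        refine w.free_int G t (I := Ico v₀ u) isPreconnected_Ico ?_ hc0 ⟨le_rfl, hu0⟩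
          ⟨hv0.le, hvu⟩ hh₀ hh (hstart _)
        rintro x ⟨hx1, hx2⟩
        rcases hx1.eq_or_lt with h4 | h4
        · rw [← h4]; exact hh₀.free t
        · exact hfree x (h3 ▸ h4) hx2
      · -- a mark at `u'`
        have hu'1 : u' < v₀ + 1 := hu'u.trans_le hu1
        have hcard : ((Finset.range 6).filter fun i => s i < u').card < N := by
          rw [← hN]
          apply Finset.card_lt_card
          rw [Finset.ssubset_iff_of_subset]
          · rcases Finset.mem_insert.1 hu'B with h4 | h4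
            · exact absurd h4 h3.ne'
            · obtain ⟨i, hi, hi2⟩ := Finset.mem_image.1 h4
              refine ⟨i, hi, ?_⟩
              rw [Finset.mem_filter]
              rintro ⟨-, h5⟩
              rw [hi2] at h5
              exact lt_irrefl _ h5
          · intro i hi
            rw [Finset.mem_filter] at hi
            rw [Finset.mem_filter]
            exact ⟨hi.1, hi.2.trans hu'u⟩
        -- the last time before `u'`
        obtain ⟨m', hm'1, hm'2, hm'3⟩ : ∃ m', v₀ ≤ m' ∧ m' < u' ∧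
            ∀ i < 6, s i < u' → s i ≤ m' := by
          set B' : Finset ℝ := insert v₀ (((Finset.range 6).filter fun i => s i < u').image s)
            with hB'
          have hne' : B'.Nonempty := ⟨v₀, Finset.mem_insert_self _ _⟩
          refine ⟨B'.max' hne', B'.le_max' _ (Finset.mem_insert_self _ _), ?_, ?_⟩
          · rcases Finset.mem_insert.1 (B'.max'_mem hne') with h4 | h4
            · rw [h4]; exact h3
            · obtain ⟨i, hi, hi2⟩ := Finset.mem_image.1 h4
              rw [← hi2]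
              rw [Finset.mem_filter] at hi
              exact hi.2
          · intro i hi1 hi2
            refine B'.le_max' _ (Finset.mem_insert_of_mem (Finset.mem_image.2 ⟨i, ?_, rfl⟩))
            rw [Finset.mem_filter, Finset.mem_range]
            exact ⟨hi1, hi2⟩
        obtain ⟨v1, g1, hv1a, hv1b, hv1c, hg1⟩ := w.exists_left hm'2 (w.near u')
        have hR1 : RS P c0 {i | s i < u'} g1 :=
          ih _ hcard u' h3 hu'1.le rfl v1 g1 (hm'1.trans_lt hv1a) hv1b
            (fun i hi1 hi2 => (hm'3 i hi1 hi2).trans_lt hv1a) hg1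
        obtain ⟨v2, g2, hv2a, hv2b, hv2c, hg2⟩ := w.exists_right hlt (w.near u')
        obtain ⟨T, hT, hTA, hTb⟩ := hR1
        have a1 := hv1c g1 hg1
        have a2 := hv2c g2 hg2
        obtain ⟨T', hT', hAd, hTb'⟩ := w.event G t hc0 _ g1 g2 a1 a2 rfl T hT
          (fun k hk => by
            by_contra hcon
            rw [Bool.not_eq_false] at hcon
            have h5 := hTA _ hcon
            have h6 := hmark u' h0u' hu'1 k _ _ (a1.2 k) (a2.2 k) hk
            have h7 : s (P.ty (g1 k).val (g2 k).val) < u' := h5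
            rw [h6] at h7
            exact lt_irrefl _ h7) hTb
        have hR2 : RS P c0 {i | s i < u} g2 := by
          refine ⟨T', hT', fun i hi => ?_, hTb'⟩
          rcases hAd i hi with h4 | ⟨k, h4, h5⟩
          · exact (show s i < u' from hTA i h4).trans hu'u
          · have h6 := hmark u' h0u' hu'1 k _ _ (a1.2 k) (a2.2 k) (h4 ▸ h5)
            rw [h4] at h6
            show s i < u
            rw [h6]
            exact hu'u
        exact w.free_int G t (I := Ioo u' u) isPreconnected_Ioo (fun x hx => hfree x hx.1 hx.2) hc0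
          ⟨hv2a, hv2b.trans hvu⟩ ⟨hlt, hvu⟩ hg2 hh hR2
  -- the end
  obtain ⟨m', hm'1, hm'2, hm'3⟩ : ∃ m', v₀ ≤ m' ∧ m' < v₀ + 1 ∧
      ∀ i < 6, s i < v₀ + 1 → s i ≤ m' := by
    set B' : Finset ℝ := insert v₀ (((Finset.range 6).filter fun i => s i < v₀ + 1).image s)
      with hB'
    have hne' : B'.Nonempty := ⟨v₀, Finset.mem_insert_self _ _⟩
    refine ⟨B'.max' hne', B'.le_max' _ (Finset.mem_insert_self _ _), ?_, ?_⟩
    · rcases Finset.mem_insert.1 (B'.max'_mem hne') with h4 | h4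
      · rw [h4]; linarith
      · obtain ⟨i, hi, hi2⟩ := Finset.mem_image.1 h4
        rw [← hi2]
        rw [Finset.mem_filter] at hi
        exact hi.2
    · intro i hi1 hi2
      refine B'.le_max' _ (Finset.mem_insert_of_mem (Finset.mem_image.2 ⟨i, ?_, rfl⟩))
      rw [Finset.mem_filter, Finset.mem_range]
      exact ⟨hi1, hi2⟩
  obtain ⟨v, g, hva, hvb, hvc, hg⟩ := w.exists_left hm'2 (w.near (v₀ + 1))
  have hR : RS P c0 {i | s i < v₀ + 1} g :=
    key _ (v₀ + 1) (by linarith) le_rfl rfl v g (hm'1.trans_lt hva) hvb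
      (fun i hi1 hi2 => (hm'3 i hi1 hi2).trans_lt hva) hg
  have hr := w.hat_rot hh₀
  obtain ⟨T, hT, -, hb⟩ := w.free_rs G t (hr.free t) hc0 (hvc g hg) (w.hp_of hr) hR
  have h9 := G.fin h₀ hl₀ T hT
  rw [← hc0d, hb] at h9
  exact absurd h9 (by decide)

end Vale.Agent.P032.Words.Pent
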